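import Vale.Agent.P184.Char

/-!
The support of the Hattori-Stallings trace, seen in the abelianization.
-/

namespace Vale.Agent.P184

open scoped BigOperators Topology
open Filter

variable {G : Type*} [Group G] {ι : Type*} [Fintype ι]

/-- the canonical map to the additive abelianization -/
def toAb (g : G) : Additive (Abelianization G) := Additive.ofMul (Abelianization.of g)

theorem toAb_mul (g h : G) : toAb (g * h) = toAb g + toAb h := by
  simp [toAb]

theorem toAb_one : toAb (1 : G) = 0 := by
  simp [toAb]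

/-- character of `G` attached to a homomorphism from the abelianization to the real circle -/
noncomputable def circChar (ψ : Additive (Abelianization G) →+ AddCircle (1 : ℝ)) : G →* ℂ where
  toFun g := (AddCircle.toCircle (ψ (toAb g)) : ℂ)
  map_one' := by simp [toAb_one]
  map_mul' g h := by simp [toAb_mul, AddCircle.toCircle_add]

theorem circChar_norm (ψ : Additive (Abelianization G) →+ AddCircle (1 : ℝ)) (g : G) :
    ‖circChar ψ g‖ ≤ 1 := by
  show ‖(AddCircle.toCircle (ψ (toAb g)) : ℂ)‖ ≤ 1
  rw [Circle.norm_coe]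

theorem circChar_eq_one_iff (ψ : Additive (Abelianization G) →+ AddCircle (1 : ℝ)) (g : G) :
    circChar ψ g = 1 ↔ ψ (toAb g) = 0 := by
  have hinj := AddCircle.injective_toCircle (one_ne_zero : (1 : ℝ) ≠ 0)
  constructor
  · intro h
    apply hinj
    rw [AddCircle.toCircle_zero]
    exact Circle.ext (by simpa [circChar] using h)
  · intro h
    simp [circChar, h]

/-- the natural map from the rational circle to the real circle -/
noncomputable def ratToReal : AddCircle (1 : ℚ) →+ AddCircle (1 : ℝ) :=
  QuotientAddGroup.map (AddSubgroup.zmultiples (1 : ℚ)) (AddSubgroup.zmultiples (1 : ℝ))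
    (Rat.castHom ℝ).toAddMonoidHom (by
      intro q hq
      rw [AddSubgroup.mem_zmultiples_iff] at hq
      obtain ⟨n, rfl⟩ := hq
      rw [AddSubgroup.mem_comap, AddSubgroup.mem_zmultiples_iff]
      exact ⟨n, by simp⟩)

theorem ratToReal_coe (q : ℚ) : ratToReal (q : AddCircle (1 : ℚ)) = ((q : ℝ) : AddCircle (1 : ℝ)) :=
  rfl

theorem ratToReal_eq_zero {z : AddCircle (1 : ℚ)} (h : ratToReal z = 0) : z = 0 := by
  induction z using QuotientAddGroup.induction_on with
  | H q =>
    have h1 : ((q : ℝ) : AddCircle (1 : ℝ)) = 0 := by rw [← ratToReal_coe]; exact h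
    rw [AddCircle.coe_eq_zero_iff] at h1
    obtain ⟨n, hn⟩ := h1
    show ((q : ℚ) : AddCircle (1 : ℚ)) = 0
    rw [AddCircle.coe_eq_zero_iff]
    refine ⟨n, ?_⟩
    have : ((n : ℚ) : ℝ) = (q : ℝ) := by simpa using hn
    have h2 : (n : ℚ) = q := by exact_mod_cast this
    simpa using h2

/-- separation of a point from a subgroup by a circle valued homomorphism -/
theorem exists_circ_sep {M : Type*} [AddCommGroup M] (B : AddSubgroup M) {a : M} (ha : a ∉ B) :
    ∃ ψ : M →+ AddCircle (1 : ℝ), (∀ b ∈ B, ψ b = 0) ∧ ψ a ≠ 0 := by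
  have hne : (QuotientAddGroup.mk' B a) ≠ 0 := by
    intro h
    exact ha ((QuotientAddGroup.eq_zero_iff a).mp h)
  obtain ⟨c, hc⟩ := CharacterModule.exists_character_apply_ne_zero_of_ne_zero hne
  let c' : (M ⧸ B) →+ AddCircle (1 : ℚ) := c
  refine ⟨ratToReal.comp (c'.comp (QuotientAddGroup.mk' B)), ?_, ?_⟩
  · intro b hb
    have : QuotientAddGroup.mk' B b = 0 := (QuotientAddGroup.eq_zero_iff b).mpr hb
    simp only [AddMonoidHom.comp_apply, this, map_zero]
  · intro h
    exact hc (ratToReal_eq_zero h)

/-- a real valued homomorphism detecting an element of infinite order -/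
theorem exists_real_hom {M : Type*} [AddCommGroup M] {a : M} (ha : ¬ IsOfFinAddOrder a) :
    ∃ φ : M →+ ℝ, φ a = 1 := by
  have hinj : Function.Injective (zmultiplesHom M a) := by
    rw [injective_iff_map_eq_zero]
    intro n hn
    by_contra hne
    apply ha
    rw [isOfFinAddOrder_iff_zsmul_eq_zero]
    exact ⟨n, hne, by simpa using hn⟩
  obtain ⟨φ, hφ⟩ := (Module.Baer.of_divisible ℝ).extension_property_addMonoidHom
    (zmultiplesHom M a) hinj (zmultiplesHom ℝ 1)
  refine ⟨φ, ?_⟩
  have := congrArg (fun f : ℤ →+ ℝ => f 1) hφ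
  simpa using this

end Vale.Agent.P184
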