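import Vale.Agent.P184.Abel

/-!
Main theorem on the abelianization.
-/

namespace Vale.Agent.P184

open scoped BigOperators Topology
open Filter

variable {G : Type*} [Group G] {ι : Type*} [Fintype ι]

/-- one-parameter family of characters attached to a real valued homomorphism -/
noncomputable def realChar (φ : Additive (Abelianization G) →+ ℝ) (s : ℝ) : G →* ℂ where
  toFun g := Complex.exp (((s * φ (toAb g) : ℝ) : ℂ) * Complex.I)
  map_one' := by simp [toAb_one]
  map_mul' g h := by
    rw [toAb_mul, map_add, mul_add]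
    push_cast
    rw [add_mul, Complex.exp_add]

theorem realChar_apply (φ : Additive (Abelianization G) →+ ℝ) (s : ℝ) (g : G) :
    realChar φ s g = Complex.exp (((s * φ (toAb g) : ℝ) : ℂ) * Complex.I) := rfl

theorem vanish_of_real_hom (e : ι → ι → G → ℂ)
    (hs : ∀ i j, Summable fun g => ‖e i j g‖)
    (he : ∀ i j g, ∑ k, ∑' h, e i k h * e k j (h⁻¹ * g) = e i j g)
    (φ : Additive (Abelianization G) →+ ℝ) (x : G) (hx : φ (toAb x) = 1) :
    ∑' g : (ConjClasses.mk x).carrier, ∑ i, e i i g = 0 := by
  have h := path_raw e hs he (fun s : ℝ => charRep (realChar φ s)) (K := 1)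
    (fun s g a b => by
      rw [charRep_apply, realChar_apply, Complex.norm_exp_ofReal_mul_I])
    (fun g a b => by
      simp only [charRep_apply, realChar_apply]
      fun_prop) Real.pi 0 x
  rw [trace_charRep, trace_charRep, realChar_apply, realChar_apply, hx] at h
  simp only [mul_one, zero_mul, Complex.ofReal_zero, Complex.exp_zero, one_mul,
    Complex.exp_pi_mul_I] at h
  have h2 : (2 : ℂ) * ∑' g : (ConjClasses.mk x).carrier, ∑ i, e i i g = 0 := by
    linear_combination -h
  simpa using h2

theorem finite_torsion_of_closure {M : Type*} [AddCommGroup M] (T : Finset M) :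
    {a : M | a ∈ AddSubgroup.closure (T : Set M) ∧ IsOfFinAddOrder a}.Finite := by
  set B : AddSubgroup M := AddSubgroup.closure (T : Set M) with hB
  have hfg : AddGroup.FG B := (AddGroup.fg_iff_addSubgroup_fg B).mpr ⟨T, rfl⟩
  have : Module.Finite ℤ B := Module.Finite.iff_addGroup_fg.mpr hfg
  have : IsNoetherian ℤ B := isNoetherian_of_isNoetherianRing_of_finite ℤ B
  have : Module.Finite ℤ (Submodule.torsion ℤ B) := inferInstance
  have hfin : Finite (Submodule.torsion ℤ B) :=
    Module.finite_of_fg_torsion _ (Submodule.torsion_isTorsion)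
  refine (Set.finite_range (fun t : Submodule.torsion ℤ B => ((t : B) : M))).subset ?_
  rintro a ⟨haB, hfo⟩
  rw [isOfFinAddOrder_iff_nsmul_eq_zero] at hfo
  obtain ⟨n, hn, hna⟩ := hfo
  have hmem : (⟨a, haB⟩ : B) ∈ Submodule.torsion ℤ B := by
    rw [Submodule.mem_torsion_iff]
    refine ⟨⟨(n : ℤ), mem_nonZeroDivisors_of_ne_zero (by exact_mod_cast hn.ne')⟩, ?_⟩
    apply Subtype.ext
    show ((n : ℤ) • a) = 0
    simpa using hna
  exact ⟨⟨⟨a, haB⟩, hmem⟩, rfl⟩

/-- The support of the Hattori-Stallings trace projects into a finite set of torsion elements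
of the abelianization. -/
theorem abel_raw (e : ι → ι → G → ℂ)
    (hs : ∀ i j, Summable fun g => ‖e i j g‖)
    (he : ∀ i j g, ∑ k, ∑' h, e i k h * e k j (h⁻¹ * g) = e i j g) :
    ∃ F : Set (Abelianization G), F.Finite ∧ (∀ a ∈ F, IsOfFinOrder a) ∧
      ∀ x : G, Abelianization.of x ∉ F →
        ∑' g : (ConjClasses.mk x).carrier, ∑ i, e i i g = 0 := by
  classical
  obtain ⟨S, hS⟩ := exists_finset_tail e hs
  set T : Finset (Additive (Abelianization G)) := S.image toAb with hT
  set B : AddSubgroup (Additive (Abelianization G)) := AddSubgroup.closure (T : Set _) with hB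
  have hfin := finite_torsion_of_closure T
  refine ⟨{a | Additive.ofMul a ∈ B ∧ IsOfFinOrder a}, ?_, fun a ha => ha.2, ?_⟩
  · refine (hfin.image Additive.toMul).subset ?_
    rintro a ⟨h1, h2⟩
    exact ⟨Additive.ofMul a, ⟨h1, isOfFinAddOrder_ofMul_iff.mpr h2⟩, rfl⟩
  · intro x hx
    by_cases hxB : toAb x ∈ B
    · have hno : ¬ IsOfFinAddOrder (toAb x) := by
        intro h
        exact hx ⟨hxB, isOfFinAddOrder_ofMul_iff.mp h⟩
      obtain ⟨φ, hφ⟩ := exists_real_hom hno
      exact vanish_of_real_hom e hs he φ x hφ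
    · obtain ⟨ψ, hψB, hψx⟩ := exists_circ_sep B hxB
      have htriv : ∀ g ∈ S, circChar ψ g = 1 := by
        intro g hg
        rw [circChar_eq_one_iff]
        apply hψB
        apply AddSubgroup.subset_closure
        rw [hT]
        exact Finset.mem_coe.mpr (Finset.mem_image_of_mem _ hg)
      have hclose := close_of_trivial_on e hs S hS (circChar ψ) (circChar_norm ψ) htriv
      have h := core_char e hs he (circChar ψ) (circChar_norm ψ) hclose x
      have hne : circChar ψ x ≠ 1 := fun h1 => hψx ((circChar_eq_one_iff ψ x).mp h1)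
      have h2 : (circChar ψ x - 1) * ∑' g : (ConjClasses.mk x).carrier, ∑ i, e i i g = 0 := by
        rw [sub_mul, h, one_mul, sub_self]
      rcases mul_eq_zero.mp h2 with h3 | h3
      · exact absurd (sub_eq_zero.mp h3) hne
      · exact h3

end Vale.Agent.P184
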