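import Mathlib

/-!
Abstract lemma: a bounded trace takes the same value on two idempotents that are at
distance less than one.
-/

namespace Vale.Agent.P184

variable {R : Type*} [Ring R]

theorem anticomm_pow {A B : R} (h : A * B = -(B * A)) (n : ℕ) :
    B * A ^ (2 * n + 1) = -(A ^ (2 * n + 1) * B) := by
  induction n with
  | zero => simp [h]
  | succ n ih =>
    have e1 : A ^ (2 * (n + 1) + 1) = A ^ (2 * n + 1) * A * A := by
      rw [show 2 * (n + 1) + 1 = (2 * n + 1) + 1 + 1 by ring, pow_succ, pow_succ]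
    have hBA : B * A = -(A * B) := by rw [h, neg_neg]
    calc B * A ^ (2 * (n + 1) + 1) = (B * A ^ (2 * n + 1)) * A * A := by
          rw [e1]; simp only [mul_assoc]
      _ = -(A ^ (2 * n + 1) * B) * A * A := by rw [ih]
      _ = -(A ^ (2 * n + 1) * (B * A) * A) := by simp only [mul_assoc, neg_mul]
      _ = -(A ^ (2 * n + 1) * (-(A * B)) * A) := by rw [hBA]
      _ = A ^ (2 * n + 1) * A * (B * A) := by
          simp only [mul_assoc, neg_mul, mul_neg, neg_neg]
      _ = A ^ (2 * n + 1) * A * (-(A * B)) := by rw [hBA]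
      _ = -(A ^ (2 * n + 1) * A * A * B) := by simp only [mul_assoc, mul_neg]
      _ = -(A ^ (2 * (n + 1) + 1) * B) := by rw [e1]

theorem trace_odd_pow (t : R →+ ℂ) (htr : ∀ a b, t (a * b) = t (b * a)) {A B : R}
    (h1 : A * B = -(B * A)) (h2 : A * A + B * B = 1) (n : ℕ) :
    t (A ^ (2 * n + 1)) = t A := by
  induction n with
  | zero => simp
  | succ n ih =>
    have e1 : A ^ (2 * (n + 1) + 1) = A ^ (2 * n + 1) * (A * A) := by
      rw [show 2 * (n + 1) + 1 = (2 * n + 1) + 1 + 1 by ring, pow_succ, pow_succ, mul_assoc]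
    have hAA : A * A = 1 - B * B := by rw [← h2]; abel
    have hz : t (A ^ (2 * n + 1) * (B * B)) = 0 := by
      have c1 : t (A ^ (2 * n + 1) * (B * B)) = t (B * A ^ (2 * n + 1) * B) := by
        rw [← mul_assoc, htr, ← mul_assoc]
      have c2 : t (B * A ^ (2 * n + 1) * B) = -t (A ^ (2 * n + 1) * (B * B)) := by
        rw [anticomm_pow h1, neg_mul, map_neg, mul_assoc]
      have c3 : t (A ^ (2 * n + 1) * (B * B)) = -t (A ^ (2 * n + 1) * (B * B)) := c1.trans c2
      have c4 : (2 : ℂ) * t (A ^ (2 * n + 1) * (B * B)) = 0 := by linear_combination c3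
      simpa using c4
    rw [e1, hAA, mul_sub, mul_one, map_sub, hz, sub_zero, ih]

theorem N_pow_le (N : R → ℝ) (hN : ∀ a b, N (a * b) ≤ N a * N b) (hN0 : ∀ a, 0 ≤ N a)
    (A : R) (n : ℕ) : N (A ^ (n + 1)) ≤ N A ^ (n + 1) := by
  induction n with
  | zero => simp
  | succ n ih =>
    rw [pow_succ, pow_succ (N A)]
    exact (hN _ _).trans (mul_le_mul_of_nonneg_right ih (hN0 _))

/-- A trace bounded by a submultiplicative gauge agrees on idempotents at gauge distance
less than one. -/
theorem trace_eq_of_close (t : R →+ ℂ) (N : R → ℝ)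
    (htr : ∀ a b, t (a * b) = t (b * a)) (hN : ∀ a b, N (a * b) ≤ N a * N b)
    (hN0 : ∀ a, 0 ≤ N a) (htN : ∀ a, ‖t a‖ ≤ N a) {e f : R} (he : e * e = e) (hf : f * f = f)
    (hclose : N (e - f) < 1) : t e = t f := by
  set A := e - f with hA
  set B := 1 - e - f with hB
  have h1 : A * B = -(B * A) := by
    simp only [hA, hB, mul_sub, sub_mul, mul_one, one_mul, he, hf]
    abel
  have h2 : A * A + B * B = 1 := by
    simp only [hA, hB, mul_sub, sub_mul, mul_one, one_mul, he, hf]
    abel
  have h3 : ∀ n : ℕ, ‖t A‖ ≤ N A ^ (2 * n + 1) := by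
    intro n
    rw [← trace_odd_pow t htr h1 h2 n]
    exact (htN _).trans (N_pow_le N hN hN0 A (2 * n))
  have h4 : Filter.Tendsto (fun n : ℕ => N A ^ (2 * n + 1)) Filter.atTop (nhds 0) := by
    have := tendsto_pow_atTop_nhds_zero_of_lt_one (hN0 A) hclose
    refine this.comp ?_
    refine Filter.tendsto_atTop_mono (fun n => ?_) Filter.tendsto_id
    simp only [id]
    omega
  have h5 : ‖t A‖ ≤ 0 := ge_of_tendsto' h4 h3
  have h6 : t A = 0 := by simpa using h5
  rw [hA, map_sub, sub_eq_zero] at h6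
  exact h6

end Vale.Agent.P184
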