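import Vale.Agent.P184.Length

/-!
Vanishing of the Hattori-Stallings coefficient at a class `[x]` when `x` is undistorted for some
length function of `G` and the centralizer of `x` has a left invariant mean.
-/

namespace Vale.Agent.P184

open scoped BigOperators

variable {G : Type*} [Group G] {ι : Type*} [Fintype ι]

theorem amenable_raw (e : ι → ι → G → ℂ) (hs : ∀ i j, Summable fun g => ‖e i j g‖)
    (he : ∀ i j g, ∑ k, ∑' h, e i k h * e k j (h⁻¹ * g) = e i j g)
    (L : G → ℝ) (hL : ∀ g h, L (g * h) ≤ L g + L h) (x : G) (c : ℝ) (hc : 0 < c)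
    (hund : ∀ n : ℕ, c * n ≤ L (x ^ n))
    (m : (Subgroup.centralizer ({x} : Set G) → ℝ) → ℝ)
    (hm_add : ∀ f g : Subgroup.centralizer ({x} : Set G) → ℝ, (∃ K, ∀ z, |f z| ≤ K) →
      (∃ K, ∀ z, |g z| ≤ K) → m (fun z => f z + g z) = m f + m g)
    (hm_mono : ∀ f g : Subgroup.centralizer ({x} : Set G) → ℝ, (∃ K, ∀ z, |f z| ≤ K) →
      (∃ K, ∀ z, |g z| ≤ K) → (∀ z, f z ≤ g z) → m f ≤ m g)
    (hm_const : ∀ r : ℝ, m (fun _ => r) = r)
    (hm_inv : ∀ f : Subgroup.centralizer ({x} : Set G) → ℝ, (∃ K, ∀ z, |f z| ≤ K) →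
      ∀ w, m (fun z => f (w * z)) = m f) :
    ∑' g : (ConjClasses.mk x).carrier, ∑ i, e i i g = 0 := by
  classical
  obtain ⟨hL1, hL2⟩ := symm_length L hL
  set L2 : G → ℝ := fun g => max (L g) (L g⁻¹) with hL2def
  have hmem : ∀ z : Subgroup.centralizer ({x} : Set G), Commute (z : G) x := fun z =>
    Subgroup.mem_centralizer_singleton_iff.mp z.2
  have hdom : ∀ a : Multiplicative ℤ, |c * (Multiplicative.toAdd a : ℤ)| ≤
      L2 (zpowersHom G x a) := by
    intro a
    rw [zpowersHom_apply]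
    set n : ℤ := Multiplicative.toAdd a with hn
    rcases le_total 0 n with h0 | h0
    · obtain ⟨k, hk⟩ := Int.eq_ofNat_of_zero_le h0
      rw [hk, zpow_natCast, Int.cast_natCast, abs_of_nonneg (by positivity)]
      exact (hund k).trans (le_max_left _ _)
    · obtain ⟨k, hk⟩ := Int.eq_ofNat_of_zero_le (neg_nonneg.mpr h0)
      have hk' : n = -(k : ℤ) := by omega
      rw [hk', zpow_neg, zpow_natCast, Int.cast_neg, Int.cast_natCast, mul_neg, abs_neg,
        abs_of_nonneg (by positivity)]
      refine (hund k).trans ?_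
      simp only [hL2def, inv_inv]
      exact le_max_right _ _
  obtain ⟨F0, hF1, hF2⟩ := mcshane (zpowersHom G x)
    (fun a : Multiplicative ℤ => c * (Multiplicative.toAdd a : ℤ))
    (fun a b => by rw [toAdd_mul]; push_cast; ring) L2 hL1 hL2 hdom
  have hF1x : ∀ g, F0 (g * x) = F0 g + c := by
    intro g
    have := hF1 g (Multiplicative.ofAdd 1)
    rw [zpowersHom_apply] at this
    simpa using this
  set f : G → Subgroup.centralizer ({x} : Set G) → ℝ := fun g k => F0 (g * k) - F0 k with hf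
  have hfb : ∀ g, ∃ K, ∀ z, |f g z| ≤ K := fun g => ⟨L2 g, fun z => hF2 g z⟩
  refine equivariant_raw e hs he (fun g => m (f g)) (fun g => m (f g)) x ?_ ?_ ?_
  · intro g z hz
    have hzZ : z ∈ Subgroup.centralizer ({x} : Set G) :=
      Subgroup.mem_centralizer_singleton_iff.mpr hz
    have e1 : f (g * z) = fun k => f g ((⟨z, hzZ⟩ : Subgroup.centralizer ({x} : Set G)) * k)
        + f z k := by
      funext k
      simp only [hf, Subgroup.coe_mul, mul_assoc]
      ring
    show m (f (g * z)) = m (f g) + m (f z)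
    rw [e1, hm_add _ _ ?_ (hfb z), hm_inv _ (hfb g)]
    obtain ⟨K, hK⟩ := hfb g
    exact ⟨K, fun k => hK _⟩
  · intro h
    refine ⟨L2 h, fun g => ?_⟩
    have hcb : ∀ r : ℝ, ∃ K, ∀ _z : Subgroup.centralizer ({x} : Set G), |r| ≤ K :=
      fun r => ⟨|r|, fun _ => le_refl _⟩
    have hsum : ∀ (g : G) (r : ℝ), ∃ K, ∀ z, |f g z + r| ≤ K := by
      intro g r
      obtain ⟨K, hK⟩ := hfb g
      exact ⟨K + |r|, fun z => (abs_add_le _ _).trans (add_le_add (hK z) (le_refl _))⟩
    have h1 : m (f (h * g)) ≤ m (f g) + L2 h := by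
      have := hm_mono (f (h * g)) (fun z => f g z + L2 h) (hfb _) (hsum g _) (fun z => by
        have := (abs_le.mp (hF2 h (g * z))).2
        simp only [hf]
        rw [mul_assoc]
        linarith)
      rwa [hm_add _ _ (hfb g) (hcb _), hm_const] at this
    have h2 : m (f g) ≤ m (f (h * g)) + L2 h := by
      have := hm_mono (f g) (fun z => f (h * g) z + L2 h) (hfb _) (hsum _ _) (fun z => by
        have := (abs_le.mp (hF2 h (g * z))).1
        simp only [hf]
        rw [mul_assoc]
        linarith)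
      rwa [hm_add _ _ (hfb _) (hcb _), hm_const] at this
    rw [abs_le]
    constructor <;> linarith
  · have e1 : f x = fun _ => c := by
      funext k
      simp only [hf]
      rw [← (hmem k).eq, hF1x]
      ring
    show m (f x) ≠ 0
    rw [e1, hm_const]
    exact hc.ne'

end Vale.Agent.P184
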