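import Vale.Agent.P184.Path

/-!
Scalar characters: closeness theorem and tails.
-/

namespace Vale.Agent.P184

open scoped BigOperators Topology
open Filter

variable {G : Type*} [Group G] {ι : Type*} [Fintype ι]

/-- a scalar character as a one by one matrix representation -/
noncomputable def charRep (χ : G →* ℂ) : G →* Matrix Unit Unit ℂ :=
  (Matrix.scalar Unit).toMonoidHom.comp χ

theorem charRep_apply (χ : G →* ℂ) (g : G) (a b : Unit) : charRep χ g a b = χ g := by
  simp [charRep]

theorem trace_charRep (χ : G →* ℂ) (g : G) : Matrix.trace (charRep χ g) = χ g := by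
  simp [charRep, Matrix.trace]

theorem core_char (e : ι → ι → G → ℂ)
    (hs : ∀ i j, Summable fun g => ‖e i j g‖)
    (he : ∀ i j g, ∑ k, ∑' h, e i k h * e k j (h⁻¹ * g) = e i j g)
    (χ : G →* ℂ) (hχ : ∀ g, ‖χ g‖ ≤ 1)
    (hclose : ∑ i, ∑ j, ∑' g, ‖χ g - 1‖ * ‖e i j g‖ < 1) (x : G) :
    χ x * ∑' g : (ConjClasses.mk x).carrier, ∑ i, e i i g
      = ∑' g : (ConjClasses.mk x).carrier, ∑ i, e i i g := by
  have h := core_raw e hs he (charRep χ) (charRep 1) (K := 1) (K' := 1)
    (fun g a b => by rw [charRep_apply]; exact hχ g)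
    (fun g a b => by rw [charRep_apply]; simp)
    (by simpa [charRep_apply] using hclose) x
  rw [trace_charRep, trace_charRep] at h
  simpa using h

/-- total mass function of the family -/
noncomputable def mass (e : ι → ι → G → ℂ) : G → ℝ := fun g => ∑ i, ∑ j, ‖e i j g‖

omit [Group G] in
theorem mass_nonneg (e : ι → ι → G → ℂ) (g : G) : 0 ≤ mass e g :=
  Finset.sum_nonneg fun _ _ => Finset.sum_nonneg fun _ _ => norm_nonneg _

omit [Group G] in
theorem summable_mass (e : ι → ι → G → ℂ) (hs : ∀ i j, Summable fun g => ‖e i j g‖) :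
    Summable (mass e) :=
  summable_sum fun i _ => summable_sum fun j _ => hs i j

omit [Group G] in
theorem defect_eq (e : ι → ι → G → ℂ) (hs : ∀ i j, Summable fun g => ‖e i j g‖)
    (c : G → ℝ) {K : ℝ} (hc0 : ∀ g, 0 ≤ c g) (hc : ∀ g, c g ≤ K) :
    ∑ i, ∑ j, ∑' g, c g * ‖e i j g‖ = ∑' g, c g * mass e g := by
  have hsum : ∀ i j, Summable fun g => c g * ‖e i j g‖ := by
    intro i j
    refine Summable.of_nonneg_of_le (fun g => mul_nonneg (hc0 g) (norm_nonneg _)) (fun g => ?_)
      ((hs i j).mul_left K)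
    exact mul_le_mul_of_nonneg_right (hc g) (norm_nonneg _)
  have h1 : ∀ i, ∑ j, ∑' g, c g * ‖e i j g‖ = ∑' g, ∑ j, c g * ‖e i j g‖ := by
    intro i
    rw [Summable.tsum_finsetSum fun j _ => hsum i j]
  rw [Finset.sum_congr rfl fun i _ => h1 i,
    ← Summable.tsum_finsetSum fun i _ => summable_sum fun j _ => hsum i j]
  refine tsum_congr fun g => ?_
  unfold mass
  rw [Finset.mul_sum]
  exact Finset.sum_congr rfl fun i _ => (Finset.mul_sum _ _ _).symm

omit [Group G] in
/-- a finite set carrying all but less than one half of the mass -/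
theorem exists_finset_tail (e : ι → ι → G → ℂ) (hs : ∀ i j, Summable fun g => ‖e i j g‖) :
    ∃ S : Finset G, ∑' g : {g // g ∉ S}, mass e g < 1 / 2 := by
  have h := tendsto_tsum_compl_atTop_zero (mass e)
  exact (h.eventually (gt_mem_nhds (by norm_num : (0 : ℝ) < 1 / 2))).exists

/-- a unit-modulus character which is trivial on the finite set `S` is close to the trivial one -/
theorem close_of_trivial_on (e : ι → ι → G → ℂ) (hs : ∀ i j, Summable fun g => ‖e i j g‖)
    (S : Finset G) (hS : ∑' g : {g // g ∉ S}, mass e g < 1 / 2)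
    (χ : G →* ℂ) (hχ : ∀ g, ‖χ g‖ ≤ 1) (hχS : ∀ g ∈ S, χ g = 1) :
    ∑ i, ∑ j, ∑' g, ‖χ g - 1‖ * ‖e i j g‖ < 1 := by
  classical
  have hb : ∀ g, ‖χ g - 1‖ ≤ 2 := by
    intro g
    calc ‖χ g - 1‖ ≤ ‖χ g‖ + ‖(1 : ℂ)‖ := norm_sub_le _ _
      _ ≤ 1 + 1 := by simpa using hχ g
      _ = 2 := by norm_num
  rw [defect_eq e hs (fun g => ‖χ g - 1‖) (fun g => norm_nonneg _) hb]
  have hm := summable_mass e hs
  have h1 : ∑' g : {g // g ∉ S}, mass e g = ∑' g, Set.indicator {g | g ∉ S} (mass e) g :=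
    tsum_subtype {g | g ∉ S} (mass e)
  have hind : Summable (Set.indicator {g | g ∉ S} (mass e)) := hm.indicator _
  have h2 : ∑' g, ‖χ g - 1‖ * mass e g ≤ ∑' g, 2 * Set.indicator {g | g ∉ S} (mass e) g := by
    refine Summable.tsum_le_tsum (fun g => ?_) ?_ (hind.mul_left 2)
    · by_cases hg : g ∈ S
      · have : g ∉ {g | g ∉ S} := by simpa using hg
        rw [hχS g hg, Set.indicator_of_notMem this]
        simp
      · have : g ∈ {g | g ∉ S} := hg
        rw [Set.indicator_of_mem this]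
        exact mul_le_mul_of_nonneg_right (hb g) (mass_nonneg e g)
    · refine Summable.of_nonneg_of_le (fun g => mul_nonneg (norm_nonneg _) (mass_nonneg e g))
        (fun g => ?_) (hm.mul_left 2)
      exact mul_le_mul_of_nonneg_right (hb g) (mass_nonneg e g)
  rw [tsum_mul_left, ← h1] at h2
  linarith

end Vale.Agent.P184
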