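import Vale.Agent.P184.KTwist

/-!
Vanishing of the Hattori-Stallings coefficient at a class detected by a real cocycle of the
conjugation action that is bounded in the space variable.
-/

namespace Vale.Agent.P184

open scoped BigOperators Topology
open Filter

variable {G : Type*} [Group G] {ι : Type*} [Fintype ι]

theorem sum_cw_eq (e : ι → ι → G → ℂ) (hs : ∀ i j, Summable fun g => ‖e i j g‖)
    (C : ConjClasses G) :
    ∑ i, ∑' g, cw C g * e i i g = ∑' g : C.carrier, ∑ i, e i i g := by
  classical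
  rw [tsum_subtype C.carrier (fun g => ∑ i, e i i g), ← Summable.tsum_finsetSum]
  · refine tsum_congr fun g => ?_
    by_cases hg : g ∈ C.carrier
    · simp [cw, Set.indicator_of_mem hg]
    · simp [cw, Set.indicator_of_notMem hg]
  · intro i _
    exact L1.summable_pair (cw_norm_le _) (toMat e hs i i)

theorem cocycle_one {c : G → G → ℝ}
    (hc : ∀ g h y, c (g * h) y = c g y + c h (g⁻¹ * y * g)) (y : G) : c 1 y = 0 := by
  have h := hc 1 1 y
  simp at h
  exact h

theorem cocycle_diag {c : G → G → ℝ}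
    (hc : ∀ g h y, c (g * h) y = c g y + c h (g⁻¹ * y * g)) (x h : G) :
    c (h * x * h⁻¹) (h * x * h⁻¹) = c x x := by
  set y := h * x * h⁻¹ with hy
  have e1 : h⁻¹ * y * h = x := by rw [hy]; group
  have h1 : c (h * x * h⁻¹) y = c h y + c (x * h⁻¹) x := by
    rw [mul_assoc, hc, e1]
  have h2 : c (x * h⁻¹) x = c x x + c h⁻¹ x := by
    rw [hc]
    congr 2
    group
  have h3 : c h y + c h⁻¹ x = 0 := by
    have := hc h h⁻¹ y
    rw [mul_inv_cancel, cocycle_one hc, e1] at this
    linarith
  rw [h1, h2]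
  linarith

theorem norm_exp_sub_exp_le (a b : ℝ) :
    ‖Complex.exp ((a : ℂ) * Complex.I) - Complex.exp ((b : ℂ) * Complex.I)‖ ≤ |a - b| := by
  have h1 : Complex.exp ((a : ℂ) * Complex.I) - Complex.exp ((b : ℂ) * Complex.I)
      = Complex.exp ((b : ℂ) * Complex.I) * (Complex.exp (Complex.I * ((a - b : ℝ) : ℂ)) - 1) := by
    rw [mul_sub, mul_one, ← Complex.exp_add]
    congr 2
    push_cast
    ring
  rw [h1, norm_mul, Complex.norm_exp_ofReal_mul_I, one_mul]
  exact Real.norm_exp_I_mul_ofReal_sub_one_le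

/-- Theorem: a real cocycle, bounded in the space variable, with nonzero diagonal value at `x`
forces the Hattori-Stallings coefficient at the class of `x` to vanish. -/
theorem cocycle_raw (e : ι → ι → G → ℂ) (hs : ∀ i j, Summable fun g => ‖e i j g‖)
    (he : ∀ i j g, ∑ k, ∑' h, e i k h * e k j (h⁻¹ * g) = e i j g)
    (c : G → G → ℝ) (hc : ∀ g h y, c (g * h) y = c g y + c h (g⁻¹ * y * g))
    (hbd : ∀ g, ∃ K, ∀ y, |c g y| ≤ K) (x : G) (hx : c x x ≠ 0) :
    ∑' g : (ConjClasses.mk x).carrier, ∑ i, e i i g = 0 := by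
  classical
  choose K hK using hbd
  have hK0 : ∀ g, 0 ≤ K g := fun g => (abs_nonneg _).trans (hK g g)
  set u : ℝ → G → G → ℂ := fun s g y => Complex.exp (((s * c g y : ℝ) : ℂ) * Complex.I) with hu
  have hu1 : ∀ s g y, ‖u s g y‖ ≤ 1 := fun s g y => by
    rw [hu]; simp only; rw [Complex.norm_exp_ofReal_mul_I]
  have hcoc : ∀ s g h y, u s (g * h) y = u s g y * u s h (g⁻¹ * y * g) := by
    intro s g h y
    simp only [hu]
    rw [hc, mul_add, ← Complex.exp_add]
    congr 1
    push_cast
    ring
  set b : ℝ → ℝ → G → ℝ := fun s0 s g => min 2 (|s - s0| * K g) with hb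
  have hbu : ∀ s0 s g y, ‖u s g y - u s0 g y‖ ≤ b s0 s g := by
    intro s0 s g y
    refine le_min ?_ ?_
    · calc ‖u s g y - u s0 g y‖ ≤ ‖u s g y‖ + ‖u s0 g y‖ := norm_sub_le _ _
        _ ≤ 1 + 1 := add_le_add (hu1 _ _ _) (hu1 _ _ _)
        _ = 2 := by norm_num
    · refine (norm_exp_sub_exp_le _ _).trans ?_
      rw [← sub_mul, abs_mul]
      exact mul_le_mul_of_nonneg_left (hK g y) (abs_nonneg _)
  set w := cw (ConjClasses.mk x) with hw
  set F : ℝ → ℂ := fun s => ∑ i, ∑' g, w g * (u s g g * e i i g) with hF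
  have hloc : IsLocallyConstant F := by
    rw [IsLocallyConstant.iff_eventually_eq]
    intro s0
    have key : ∀ i j, Tendsto (fun s => ∑' g, b s0 s g * ‖e i j g‖) (𝓝 s0) (𝓝 0) := by
      intro i j
      have h0 : (∑' g : G, (0 : ℝ)) = 0 := tsum_zero
      rw [← h0]
      refine tendsto_tsum_of_dominated_convergence (bound := fun g => 2 * ‖e i j g‖)
        ((hs i j).mul_left _) ?_ ?_
      · intro g
        have hcont : Continuous fun s => b s0 s g * ‖e i j g‖ := by
          simp only [hb]
          fun_prop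
        have := hcont.tendsto s0
        simpa [hb] using this
      · refine Eventually.of_forall fun s g => ?_
        have hnn : 0 ≤ b s0 s g := le_min (by norm_num) (mul_nonneg (abs_nonneg _) (hK0 g))
        rw [norm_mul, norm_norm, Real.norm_of_nonneg hnn]
        exact mul_le_mul_of_nonneg_right (min_le_left _ _) (norm_nonneg _)
    have h1 := tendsto_finsetSum (Finset.univ : Finset ι) fun i _ =>
      tendsto_finsetSum (Finset.univ : Finset ι) fun j _ => key i j
    simp only [Finset.sum_const_zero] at h1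
    have h2 := h1.eventually (gt_mem_nhds (zero_lt_one : (0 : ℝ) < 1))
    filter_upwards [h2] with s hs1
    exact core_cocycle e hs he (u s) (u s0) (hu1 s) (hu1 s0) (hcoc s) (hcoc s0) (b s0 s)
      (hbu s0 s) (fun g => min_le_left _ _) hs1 (cw_norm_le _) (cw_comm _)
  have hFs : ∀ s, F s = Complex.exp (((s * c x x : ℝ) : ℂ) * Complex.I)
      * ∑ i, ∑' g, w g * e i i g := by
    intro s
    rw [hF, Finset.mul_sum]
    refine Finset.sum_congr rfl fun i _ => ?_
    rw [← tsum_mul_left]
    refine tsum_congr fun g => ?_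
    by_cases hg : g ∈ (ConjClasses.mk x).carrier
    · have hg' := hg
      rw [ConjClasses.mem_carrier_iff_mk_eq, ConjClasses.mk_eq_mk_iff_isConj, isConj_comm,
        isConj_iff] at hg'
      obtain ⟨h, hh⟩ := hg'
      have : c g g = c x x := by rw [← hh]; exact cocycle_diag hc x h
      simp only [hu, this]
      ring
    · simp [hw, cw, Set.indicator_of_notMem hg]
  have h0 := hloc.apply_eq_of_preconnectedSpace (Real.pi / c x x) 0
  rw [hFs, hFs, div_mul_cancel₀ _ hx, Complex.exp_pi_mul_I] at h0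
  simp only [zero_mul, Complex.ofReal_zero, Complex.exp_zero, one_mul] at h0
  have h2 : (2 : ℂ) * ∑ i, ∑' g, w g * e i i g = 0 := by linear_combination -h0
  have h3 : ∑ i, ∑' g, w g * e i i g = 0 := by simpa using h2
  rw [← sum_cw_eq e hs]
  exact h3

end Vale.Agent.P184
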