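import Mathlib

/-!
Convolution of absolutely summable complex functions on a discrete group:
function-level lemmas.
-/

namespace Vale.Agent.P184

open scoped BigOperators

variable {G : Type*} [Group G]

/-- convolution of two functions on a group -/
noncomputable def conv (a b : G → ℂ) : G → ℂ := fun g => ∑' h, a h * b (h⁻¹ * g)

/-- the shear equivalence `(h, k) ↦ (h, h * k)` -/
def shear (G : Type*) [Group G] : G × G ≃ G × G where
  toFun p := (p.1, p.1 * p.2)
  invFun p := (p.1, p.1⁻¹ * p.2)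
  left_inv p := by simp
  right_inv p := by simp

omit [Group G] in
theorem norm_le_tsum_norm {a : G → ℂ} (ha : Summable fun g => ‖a g‖) (g : G) :
    ‖a g‖ ≤ ∑' k, ‖a k‖ :=
  ha.le_tsum g (fun _ _ => norm_nonneg _)

omit [Group G] in
theorem summable_prod_norm {a b : G → ℂ} (ha : Summable fun g => ‖a g‖)
    (hb : Summable fun g => ‖b g‖) :
    Summable fun p : G × G => ‖a p.1‖ * ‖b p.2‖ :=
  ha.mul_of_nonneg hb (fun _ => norm_nonneg _) (fun _ => norm_nonneg _)

theorem summable_shear_norm {a b : G → ℂ} (ha : Summable fun g => ‖a g‖)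
    (hb : Summable fun g => ‖b g‖) :
    Summable fun p : G × G => ‖a p.1‖ * ‖b (p.1⁻¹ * p.2)‖ := by
  have h := (Equiv.summable_iff (shear G).symm).mpr (summable_prod_norm ha hb)
  exact h

/-- weighted family on `G × G`, summable -/
theorem summable_weighted {a b w : G → ℂ} {M : ℝ} (ha : Summable fun g => ‖a g‖)
    (hb : Summable fun g => ‖b g‖) (hw : ∀ g, ‖w g‖ ≤ M) :
    Summable fun p : G × G => w p.2 * (a p.1 * b (p.1⁻¹ * p.2)) := by
  refine Summable.of_norm_bounded ((summable_shear_norm ha hb).mul_left M) ?_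
  intro p
  rw [norm_mul, norm_mul]
  exact mul_le_mul_of_nonneg_right (hw _) (by positivity)

theorem summable_conv_term {a b : G → ℂ} (ha : Summable fun g => ‖a g‖)
    (hb : Summable fun g => ‖b g‖) (g : G) :
    Summable fun h => a h * b (h⁻¹ * g) := by
  refine Summable.of_norm_bounded (ha.mul_right (∑' k, ‖b k‖)) ?_
  intro h
  rw [norm_mul]
  exact mul_le_mul_of_nonneg_left (norm_le_tsum_norm hb _) (norm_nonneg _)

/-- master formula: pairing a convolution with a bounded weight -/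
theorem tsum_weight_conv {a b w : G → ℂ} {M : ℝ} (ha : Summable fun g => ‖a g‖)
    (hb : Summable fun g => ‖b g‖) (hw : ∀ g, ‖w g‖ ≤ M) :
    ∑' g, w g * conv a b g = ∑' p : G × G, w (p.1 * p.2) * (a p.1 * b p.2) := by
  have hF := summable_weighted ha hb hw
  have h1 : ∑' g, w g * conv a b g = ∑' g, ∑' h, w g * (a h * b (h⁻¹ * g)) := by
    refine tsum_congr fun g => ?_
    rw [conv, tsum_mul_left]
  have h2 : ∑' g, ∑' h, w g * (a h * b (h⁻¹ * g))
      = ∑' p : G × G, w p.2 * (a p.1 * b (p.1⁻¹ * p.2)) := by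
    rw [hF.tsum_prod]
    exact Summable.tsum_comm (f := fun h g => w g * (a h * b (h⁻¹ * g))) hF
  rw [h1, h2, ← (shear G).tsum_eq]
  refine tsum_congr fun p => ?_
  simp [shear]

theorem summable_norm_conv {a b : G → ℂ} (ha : Summable fun g => ‖a g‖)
    (hb : Summable fun g => ‖b g‖) :
    Summable fun g => ‖conv a b g‖ := by
  have hF := (summable_shear_norm ha hb).prod_symm.prod
  refine Summable.of_nonneg_of_le (fun _ => norm_nonneg _) (fun g => ?_) hF
  have hs : Summable fun h => ‖a h * b (h⁻¹ * g)‖ := by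
    have := (summable_shear_norm ha hb).prod_symm.prod_factor g
    simpa [norm_mul] using this
  calc ‖conv a b g‖ ≤ ∑' h, ‖a h * b (h⁻¹ * g)‖ := norm_tsum_le_tsum_norm hs
    _ = ∑' h, ‖a h‖ * ‖b (h⁻¹ * g)‖ := by simp

theorem tsum_norm_conv_le {a b : G → ℂ} (ha : Summable fun g => ‖a g‖)
    (hb : Summable fun g => ‖b g‖) :
    ∑' g, ‖conv a b g‖ ≤ (∑' g, ‖a g‖) * ∑' g, ‖b g‖ := by
  have hS := summable_shear_norm ha hb
  have hF := hS.prod_symm.prod
  have h1 : ∑' g, ‖conv a b g‖ ≤ ∑' g, ∑' h, ‖a h‖ * ‖b (h⁻¹ * g)‖ := by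
    refine (summable_norm_conv ha hb).tsum_le_tsum (fun g => ?_) hF
    have hs : Summable fun h => ‖a h * b (h⁻¹ * g)‖ := by
      have := hS.prod_symm.prod_factor g
      simpa [norm_mul] using this
    calc ‖conv a b g‖ ≤ ∑' h, ‖a h * b (h⁻¹ * g)‖ := norm_tsum_le_tsum_norm hs
      _ = ∑' h, ‖a h‖ * ‖b (h⁻¹ * g)‖ := by simp
  have h2 : ∑' g, ∑' h, ‖a h‖ * ‖b (h⁻¹ * g)‖ = ∑' p : G × G, ‖a p.1‖ * ‖b p.2‖ := by
    rw [← (shear G).symm.tsum_eq (fun p : G × G => ‖a p.1‖ * ‖b p.2‖)]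
    have : (fun p : G × G => ‖a ((shear G).symm p).1‖ * ‖b ((shear G).symm p).2‖)
        = fun p : G × G => ‖a p.1‖ * ‖b (p.1⁻¹ * p.2)‖ := rfl
    rw [this, hS.tsum_prod]
    exact Summable.tsum_comm (f := fun h g => ‖a h‖ * ‖b (h⁻¹ * g)‖) hS
  rw [h2] at h1
  rwa [← ha.tsum_mul_tsum hb (summable_prod_norm ha hb)] at h1

end Vale.Agent.P184
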