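import Vale.Agent.P184.Conv

/-!
Algebraic identities for convolution.
-/

namespace Vale.Agent.P184

open scoped BigOperators

variable {G : Type*} [Group G]

theorem conv_assoc {a b c : G → ℂ} (ha : Summable fun g => ‖a g‖)
    (hb : Summable fun g => ‖b g‖) (hc : Summable fun g => ‖c g‖) :
    conv (conv a b) c = conv a (conv b c) := by
  funext g
  have hw : ∀ h, ‖c (h⁻¹ * g)‖ ≤ ∑' k, ‖c k‖ := fun h => norm_le_tsum_norm hc _
  have h1 : conv (conv a b) c g
      = ∑' p : G × G, c ((p.1 * p.2)⁻¹ * g) * (a p.1 * b p.2) := by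
    rw [← tsum_weight_conv (w := fun h => c (h⁻¹ * g)) ha hb hw]
    rw [conv]
    exact tsum_congr fun h => mul_comm _ _
  have hS : Summable fun p : G × G => a p.1 * (b p.2 * c (p.2⁻¹ * (p.1⁻¹ * g))) := by
    refine Summable.of_norm_bounded ((summable_prod_norm ha hb).mul_right (∑' k, ‖c k‖)) ?_
    intro p
    rw [norm_mul, norm_mul, ← mul_assoc]
    exact mul_le_mul_of_nonneg_left (norm_le_tsum_norm hc _) (by positivity)
  have h2 : conv a (conv b c) g
      = ∑' p : G × G, a p.1 * (b p.2 * c (p.2⁻¹ * (p.1⁻¹ * g))) := by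
    rw [hS.tsum_prod, conv]
    refine tsum_congr fun k => ?_
    rw [conv]
    exact tsum_mul_left.symm
  rw [h1, h2]
  refine tsum_congr fun p => ?_
  rw [mul_inv_rev, mul_assoc]
  ring

theorem conv_add {a b c : G → ℂ} (ha : Summable fun g => ‖a g‖)
    (hb : Summable fun g => ‖b g‖) (hc : Summable fun g => ‖c g‖) :
    conv a (b + c) = conv a b + conv a c := by
  funext g
  simp only [conv, Pi.add_apply, mul_add]
  exact (summable_conv_term ha hb g).tsum_add (summable_conv_term ha hc g)

theorem add_conv {a b c : G → ℂ} (ha : Summable fun g => ‖a g‖)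
    (hb : Summable fun g => ‖b g‖) (hc : Summable fun g => ‖c g‖) :
    conv (a + b) c = conv a c + conv b c := by
  funext g
  simp only [conv, Pi.add_apply, add_mul]
  exact (summable_conv_term ha hc g).tsum_add (summable_conv_term hb hc g)

/-- the unit: the delta function at the identity -/
noncomputable def delta (G : Type*) [Group G] : G → ℂ :=
  fun g => by classical exact if g = 1 then 1 else 0

theorem delta_one : delta G 1 = 1 := by simp [delta]

theorem delta_ne {g : G} (hg : g ≠ 1) : delta G g = 0 := by simp [delta, hg]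

theorem summable_delta : Summable fun g => ‖delta G g‖ := by
  refine summable_of_ne_finset_zero (s := {1}) ?_
  intro g hg
  rw [Finset.mem_singleton] at hg
  simp [delta_ne hg]

theorem tsum_norm_delta : ∑' g, ‖delta G g‖ = 1 := by
  rw [tsum_eq_single 1]
  · simp [delta_one]
  · intro g hg
    simp [delta_ne hg]

theorem delta_conv (a : G → ℂ) : conv (delta G) a = a := by
  funext g
  rw [conv, tsum_eq_single 1]
  · simp [delta_one]
  · intro h hh
    simp [delta_ne hh]

theorem conv_delta (a : G → ℂ) : conv a (delta G) = a := by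
  funext g
  rw [conv, tsum_eq_single g]
  · simp [delta_one]
  · intro h hh
    have : h⁻¹ * g ≠ 1 := by
      intro h1
      apply hh
      have := inv_mul_eq_one.mp h1
      exact this
    simp [delta_ne this]

theorem zero_conv (a : G → ℂ) : conv 0 a = 0 := by
  funext g
  simp [conv]

theorem conv_zero (a : G → ℂ) : conv a 0 = 0 := by
  funext g
  simp [conv]

end Vale.Agent.P184
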