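import Vale.Agent.P184.AbelMain

/-!
Induced (monomial) matrix representations from a finite index subgroup.
-/

namespace Vale.Agent.P184

open scoped BigOperators Topology
open Filter

variable {G : Type*} [Group G] (H : Subgroup G)

/-- extension by zero of a function on a subgroup -/
noncomputable def ext0 (χ : H → ℂ) : G → ℂ := fun g => by
  classical exact if h : g ∈ H then χ ⟨g, h⟩ else 0

variable {H}

theorem ext0_of_mem (χ : H → ℂ) {g : G} (h : g ∈ H) : ext0 H χ g = χ ⟨g, h⟩ := by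
  simp [ext0, h]

theorem ext0_of_notMem (χ : H → ℂ) {g : G} (h : g ∉ H) : ext0 H χ g = 0 := by
  simp [ext0, h]

theorem ext0_mul_right (χ : H →* ℂ) (a : G) {b : G} (hb : b ∈ H) :
    ext0 H χ (a * b) = ext0 H χ a * ext0 H χ b := by
  by_cases ha : a ∈ H
  · rw [ext0_of_mem _ ha, ext0_of_mem _ hb, ext0_of_mem _ (H.mul_mem ha hb), ← map_mul]
    rfl
  · have : a * b ∉ H := fun h => ha ((H.mul_mem_cancel_right hb).mp h)
    rw [ext0_of_notMem _ ha, ext0_of_notMem _ this, zero_mul]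

theorem norm_ext0_le (χ : H → ℂ) (hχ : ∀ h, ‖χ h‖ ≤ 1) (g : G) : ‖ext0 H χ g‖ ≤ 1 := by
  by_cases h : g ∈ H
  · rw [ext0_of_mem _ h]; exact hχ _
  · rw [ext0_of_notMem _ h]; simp

/-- coset representatives -/
noncomputable def rep (t : G ⧸ H) : G := Quotient.out t

theorem mk_rep (t : G ⧸ H) : (QuotientGroup.mk (rep t) : G ⧸ H) = t := QuotientGroup.out_eq' t

theorem rep_inv_mul_mem_iff (s : G ⧸ H) (g : G) :
    (rep s)⁻¹ * g ∈ H ↔ s = QuotientGroup.mk g := by
  rw [← QuotientGroup.eq, mk_rep]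

variable [H.FiniteIndex]

noncomputable instance : Fintype (G ⧸ H) := Subgroup.fintypeQuotientOfFiniteIndex

noncomputable instance : DecidableEq (G ⧸ H) := Classical.decEq _

/-- matrix of the induced monomial representation -/
noncomputable def indFun (χ : H →* ℂ) (g : G) : Matrix (G ⧸ H) (G ⧸ H) ℂ :=
  Matrix.of fun s t => ext0 H χ ((rep s)⁻¹ * g * rep t)

theorem indFun_apply (χ : H →* ℂ) (g : G) (s t : G ⧸ H) :
    indFun χ g s t = ext0 H χ ((rep s)⁻¹ * g * rep t) := rfl

theorem indFun_one (χ : H →* ℂ) : indFun χ (1 : G) = 1 := by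
  funext s t
  rw [indFun_apply, mul_one, Matrix.one_apply]
  by_cases hst : s = t
  · subst hst
    rw [if_pos rfl, inv_mul_cancel, ext0_of_mem _ H.one_mem]
    exact map_one χ
  · rw [if_neg hst, ext0_of_notMem]
    intro h
    rw [rep_inv_mul_mem_iff, mk_rep] at h
    exact hst h

theorem indFun_mul (χ : H →* ℂ) (g g' : G) : indFun χ (g * g') = indFun χ g * indFun χ g' := by
  funext s t
  rw [Matrix.mul_apply]
  rw [Finset.sum_eq_single (QuotientGroup.mk (g' * rep t) : G ⧸ H)]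
  · set u : G ⧸ H := QuotientGroup.mk (g' * rep t) with hu
    have hb : (rep u)⁻¹ * g' * rep t ∈ H := by
      rw [mul_assoc, rep_inv_mul_mem_iff]
    rw [indFun_apply, indFun_apply, indFun_apply, ← ext0_mul_right χ _ hb]
    congr 1
    group
  · intro u _ hu
    have : (rep u)⁻¹ * g' * rep t ∉ H := by
      intro h
      rw [mul_assoc, rep_inv_mul_mem_iff] at h
      exact hu h
    rw [indFun_apply χ g' u t, ext0_of_notMem _ this, mul_zero]
  · intro h
    exact absurd (Finset.mem_univ _) h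

/-- the induced monomial representation -/
noncomputable def ind (χ : H →* ℂ) : G →* Matrix (G ⧸ H) (G ⧸ H) ℂ where
  toFun g := indFun χ g
  map_one' := indFun_one χ
  map_mul' g g' := indFun_mul χ g g'

theorem ind_apply (χ : H →* ℂ) (g : G) (s t : G ⧸ H) :
    ind χ g s t = ext0 H χ ((rep s)⁻¹ * g * rep t) := rfl

theorem trace_ind (χ : H →* ℂ) (g : G) :
    Matrix.trace (ind χ g) = ∑ t : G ⧸ H, ext0 H χ ((rep t)⁻¹ * g * rep t) := rfl

theorem re_one_sub_pos {z : ℂ} (hz : ‖z‖ ≤ 1) (hne : z ≠ 1) : 0 < (1 - z).re := by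
  have h1 : z.re ≤ 1 := (Complex.re_le_norm z).trans hz
  rcases lt_or_eq_of_le h1 with h | h
  · simp only [Complex.sub_re, Complex.one_re]; linarith
  · exfalso
    apply hne
    have h2 : z.re ^ 2 + z.im ^ 2 ≤ 1 := by
      have := Complex.sq_norm z
      rw [Complex.normSq_apply] at this
      nlinarith [norm_nonneg z]
    have h3 : z.im = 0 := by
      rw [h] at h2
      nlinarith [sq_nonneg z.im]
    exact Complex.ext (by simpa using h) (by simpa using h3)

/-- the induced characters of a nontrivial and of a trivial character differ at `x` -/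
theorem trace_ind_ne (χ χ' : H →* ℂ) (hχ : ∀ h, ‖χ h‖ ≤ 1) (hχ' : ∀ h, χ' h = 1) (x : H)
    (hx : χ x ≠ 1) : Matrix.trace (ind χ (x : G)) ≠ Matrix.trace (ind χ' (x : G)) := by
  intro heq
  rw [trace_ind, trace_ind] at heq
  have h0 : ∑ t : G ⧸ H, (ext0 H χ' ((rep t)⁻¹ * (x : G) * rep t)
      - ext0 H χ ((rep t)⁻¹ * (x : G) * rep t)).re = 0 := by
    rw [← Complex.re_sum, Finset.sum_sub_distrib, heq, sub_self, Complex.zero_re]
  have hnn : ∀ t : G ⧸ H, 0 ≤ (ext0 H χ' ((rep t)⁻¹ * (x : G) * rep t)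
      - ext0 H χ ((rep t)⁻¹ * (x : G) * rep t)).re := by
    intro t
    by_cases h : (rep t)⁻¹ * (x : G) * rep t ∈ H
    · rw [ext0_of_mem _ h, ext0_of_mem _ h, hχ']
      have := (Complex.re_le_norm (χ ⟨_, h⟩)).trans (hχ _)
      simp only [Complex.sub_re, Complex.one_re]
      linarith
    · rw [ext0_of_notMem _ h, ext0_of_notMem _ h]; simp
  have hall := (Finset.sum_eq_zero_iff_of_nonneg fun t _ => hnn t).mp h0
  set t0 : G ⧸ H := QuotientGroup.mk (1 : G) with ht0
  have hr : rep t0 ∈ H := by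
    have : (rep t0)⁻¹ * 1 ∈ H := (rep_inv_mul_mem_iff t0 1).mpr rfl
    simpa using this
  have hmem : (rep t0)⁻¹ * (x : G) * rep t0 ∈ H :=
    H.mul_mem (H.mul_mem (H.inv_mem hr) x.2) hr
  have hval : χ ⟨_, hmem⟩ = χ x := by
    have e1 : (⟨_, hmem⟩ : H) = (⟨rep t0, hr⟩ : H)⁻¹ * x * ⟨rep t0, hr⟩ := rfl
    rw [e1, map_mul, map_mul, mul_comm (χ _) (χ x), mul_assoc, ← map_mul, inv_mul_cancel,
      map_one, mul_one]
  have h1 := hall t0 (Finset.mem_univ _)
  rw [ext0_of_mem _ hmem, ext0_of_mem _ hmem, hχ', hval] at h1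
  exact absurd h1 (re_one_sub_pos (hχ x) hx).ne'

end Vale.Agent.P184
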