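import Vale.Agent.P184.Ind

/-!
The support of the Hattori-Stallings trace seen in the abelianization of a finite index subgroup.
-/

namespace Vale.Agent.P184

open scoped BigOperators Topology
open Filter

variable {G : Type*} [Group G] {ι μ : Type*} [Fintype ι] [Fintype μ]

omit [Group G] in
theorem exists_finset_tail_eps (e : ι → ι → G → ℂ) {ε : ℝ} (hε : 0 < ε) :
    ∃ S : Finset G, ∑' g : {g // g ∉ S}, mass e g < ε := by
  have h := tendsto_tsum_compl_atTop_zero (mass e)
  exact (h.eventually (gt_mem_nhds hε)).exists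

omit [Group G] in
/-- two matrix valued functions with entries bounded by one that agree on `S` are close -/
theorem close_general (e : ι → ι → G → ℂ) (hs : ∀ i j, Summable fun g => ‖e i j g‖)
    (S : Finset G) (ρ ρ' : G → Matrix μ μ ℂ)
    (hρ : ∀ g a b, ‖ρ g a b‖ ≤ 1) (hρ' : ∀ g a b, ‖ρ' g a b‖ ≤ 1)
    (hS : 2 * ((Fintype.card μ : ℝ) * (Fintype.card μ : ℝ)) * ∑' g : {g // g ∉ S}, mass e g < 1)
    (hagree : ∀ g ∈ S, ρ g = ρ' g) :
    ∑ i, ∑ a, ∑ j, ∑ b, ∑' g, ‖ρ g a b - ρ' g a b‖ * ‖e i j g‖ < 1 := by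
  classical
  have hb : ∀ g a b, ‖ρ g a b - ρ' g a b‖ ≤ 2 := by
    intro g a b
    calc ‖ρ g a b - ρ' g a b‖ ≤ ‖ρ g a b‖ + ‖ρ' g a b‖ := norm_sub_le _ _
      _ ≤ 1 + 1 := add_le_add (hρ _ _ _) (hρ' _ _ _)
      _ = 2 := by norm_num
  have hm := summable_mass e hs
  have h1 : ∑' g : {g // g ∉ S}, mass e g = ∑' g, Set.indicator {g | g ∉ S} (mass e) g :=
    tsum_subtype {g | g ∉ S} (mass e)
  have hind : Summable (Set.indicator {g | g ∉ S} (mass e)) := hm.indicator _
  have key : ∀ a b, ∑ i, ∑ j, ∑' g, ‖ρ g a b - ρ' g a b‖ * ‖e i j g‖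
      ≤ 2 * ∑' g : {g // g ∉ S}, mass e g := by
    intro a b
    rw [defect_eq e hs (fun g => ‖ρ g a b - ρ' g a b‖) (fun g => norm_nonneg _)
      (fun g => hb g a b), h1, ← tsum_mul_left]
    refine Summable.tsum_le_tsum (fun g => ?_) ?_ (hind.mul_left 2)
    · by_cases hg : g ∈ S
      · have : g ∉ {g | g ∉ S} := by simpa using hg
        rw [hagree g hg, Set.indicator_of_notMem this]
        simp
      · have : g ∈ {g | g ∉ S} := hg
        rw [Set.indicator_of_mem this]
        exact mul_le_mul_of_nonneg_right (hb g a b) (mass_nonneg e g)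
    · refine Summable.of_nonneg_of_le (fun g => mul_nonneg (norm_nonneg _) (mass_nonneg e g))
        (fun g => ?_) (hm.mul_left 2)
      exact mul_le_mul_of_nonneg_right (hb g a b) (mass_nonneg e g)
  have hre : ∑ i, ∑ a, ∑ j, ∑ b, ∑' g, ‖ρ g a b - ρ' g a b‖ * ‖e i j g‖
      = ∑ a, ∑ b, ∑ i, ∑ j, ∑' g, ‖ρ g a b - ρ' g a b‖ * ‖e i j g‖ := by
    rw [Finset.sum_comm]
    refine Finset.sum_congr rfl fun a _ => ?_
    calc ∑ i, ∑ j, ∑ b, ∑' g, ‖ρ g a b - ρ' g a b‖ * ‖e i j g‖
        = ∑ i, ∑ b, ∑ j, ∑' g, ‖ρ g a b - ρ' g a b‖ * ‖e i j g‖ :=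
          Finset.sum_congr rfl fun i _ => Finset.sum_comm
      _ = ∑ b, ∑ i, ∑ j, ∑' g, ‖ρ g a b - ρ' g a b‖ * ‖e i j g‖ := Finset.sum_comm
  rw [hre]
  calc ∑ a, ∑ b, ∑ i, ∑ j, ∑' g, ‖ρ g a b - ρ' g a b‖ * ‖e i j g‖
      ≤ ∑ _a : μ, ∑ _b : μ, 2 * ∑' g : {g // g ∉ S}, mass e g :=
        Finset.sum_le_sum fun a _ => Finset.sum_le_sum fun b _ => key a b
    _ = 2 * ((Fintype.card μ : ℝ) * (Fintype.card μ : ℝ)) * ∑' g : {g // g ∉ S}, mass e g := by
        simp only [Finset.sum_const, Finset.card_univ, nsmul_eq_mul]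
        ring
    _ < 1 := hS

theorem norm_realChar {Γ : Type*} [Group Γ] (φ : Additive (Abelianization Γ) →+ ℝ) (s : ℝ)
    (g : Γ) : ‖realChar φ s g‖ ≤ 1 := by
  rw [realChar_apply, Complex.norm_exp_ofReal_mul_I]

theorem vanish_of_real_hom_ind (H : Subgroup G) [H.FiniteIndex] (e : ι → ι → G → ℂ)
    (hs : ∀ i j, Summable fun g => ‖e i j g‖)
    (he : ∀ i j g, ∑ k, ∑' h, e i k h * e k j (h⁻¹ * g) = e i j g)
    (φ : Additive (Abelianization H) →+ ℝ) (x : H) (hx : φ (toAb x) = 1) :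
    ∑' g : (ConjClasses.mk (x : G)).carrier, ∑ i, e i i g = 0 := by
  have h := path_raw e hs he (fun s : ℝ => ind (realChar φ s)) (K := 1)
    (fun s g a b => by
      rw [ind_apply]
      exact norm_ext0_le _ (norm_realChar φ s) _)
    (fun g a b => by
      simp only [ind_apply]
      by_cases hm : (rep a)⁻¹ * g * rep b ∈ H
      · simp only [ext0_of_mem _ hm, realChar_apply]
        fun_prop
      · simp only [ext0_of_notMem _ hm]
        exact continuous_const) Real.pi 0 (x : G)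
  have hne := trace_ind_ne (realChar φ Real.pi) (realChar φ 0) (norm_realChar φ _)
    (fun h => by simp [realChar_apply]) x
    (by
      rw [realChar_apply, hx, mul_one, Complex.exp_pi_mul_I]
      norm_num)
  have h2 : (Matrix.trace (ind (realChar φ Real.pi) (x : G))
      - Matrix.trace (ind (realChar φ 0) (x : G)))
      * ∑' g : (ConjClasses.mk (x : G)).carrier, ∑ i, e i i g = 0 := by
    rw [sub_mul, h, sub_self]
  rcases mul_eq_zero.mp h2 with h3 | h3
  · exact absurd (sub_eq_zero.mp h3) hne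
  · exact h3

/-- Finite index version of the abelianization theorem. -/
theorem fin_index_raw (H : Subgroup G) [H.FiniteIndex] (e : ι → ι → G → ℂ)
    (hs : ∀ i j, Summable fun g => ‖e i j g‖)
    (he : ∀ i j g, ∑ k, ∑' h, e i k h * e k j (h⁻¹ * g) = e i j g) :
    ∃ F : Set (Abelianization H), F.Finite ∧ (∀ a ∈ F, IsOfFinOrder a) ∧
      ∀ x : H, Abelianization.of x ∉ F →
        ∑' g : (ConjClasses.mk (x : G)).carrier, ∑ i, e i i g = 0 := by
  classical
  have hcard : (0 : ℝ) < (Fintype.card (G ⧸ H) : ℝ) := by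
    have : 0 < Fintype.card (G ⧸ H) := Fintype.card_pos_iff.mpr ⟨QuotientGroup.mk 1⟩
    exact_mod_cast this
  set c : ℝ := 2 * ((Fintype.card (G ⧸ H) : ℝ) * (Fintype.card (G ⧸ H) : ℝ)) with hc
  have hcpos : 0 < c := by positivity
  obtain ⟨S, hS⟩ := exists_finset_tail_eps e (ε := 1 / c) (by positivity)
  have hS' : c * ∑' g : {g // g ∉ S}, mass e g < 1 := by
    rw [lt_div_iff₀ hcpos] at hS
    linarith
  set T : Finset (Additive (Abelianization H)) :=
    (S ×ˢ (Finset.univ : Finset (G ⧸ H)) ×ˢ (Finset.univ : Finset (G ⧸ H))).image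
      (fun p => if h : (rep p.2.1)⁻¹ * p.1 * rep p.2.2 ∈ H then toAb (⟨_, h⟩ : H) else 0) with hT
  set B : AddSubgroup (Additive (Abelianization H)) := AddSubgroup.closure (T : Set _) with hB
  have hfin := finite_torsion_of_closure T
  refine ⟨{a | Additive.ofMul a ∈ B ∧ IsOfFinOrder a}, ?_, fun a ha => ha.2, ?_⟩
  · refine (hfin.image Additive.toMul).subset ?_
    rintro a ⟨h1, h2⟩
    exact ⟨Additive.ofMul a, ⟨h1, isOfFinAddOrder_ofMul_iff.mpr h2⟩, rfl⟩
  · intro x hx
    by_cases hxB : toAb x ∈ B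
    · have hno : ¬ IsOfFinAddOrder (toAb x) := by
        intro h
        exact hx ⟨hxB, isOfFinAddOrder_ofMul_iff.mp h⟩
      obtain ⟨φ, hφ⟩ := exists_real_hom hno
      exact vanish_of_real_hom_ind H e hs he φ x hφ
    · obtain ⟨ψ, hψB, hψx⟩ := exists_circ_sep B hxB
      have hagree : ∀ g ∈ S, (ind (circChar ψ) g : Matrix (G ⧸ H) (G ⧸ H) ℂ)
          = ind (1 : H →* ℂ) g := by
        intro g hg
        funext s t
        rw [ind_apply, ind_apply]
        by_cases hm : (rep s)⁻¹ * g * rep t ∈ H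
        · rw [ext0_of_mem _ hm, ext0_of_mem _ hm, MonoidHom.one_apply, circChar_eq_one_iff]
          apply hψB
          apply AddSubgroup.subset_closure
          rw [hT]
          refine Finset.mem_coe.mpr (Finset.mem_image.mpr ⟨(g, s, t), ?_, ?_⟩)
          · simp [hg]
          · simp [hm]
        · rw [ext0_of_notMem _ hm, ext0_of_notMem _ hm]
      have hb1 : ∀ g a b, ‖ind (circChar ψ) g a b‖ ≤ 1 := fun g a b => by
        rw [ind_apply]; exact norm_ext0_le _ (circChar_norm ψ) _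
      have hb2 : ∀ g a b, ‖ind (1 : H →* ℂ) g a b‖ ≤ 1 := fun g a b => by
        rw [ind_apply]; exact norm_ext0_le _ (fun h => by simp) _
      have hclose := close_general e hs S (fun g => ind (circChar ψ) g)
        (fun g => ind (1 : H →* ℂ) g) hb1 hb2 hS' hagree
      have h := core_raw e hs he (ind (circChar ψ)) (ind (1 : H →* ℂ)) hb1 hb2 hclose (x : G)
      have hne1 : circChar ψ x ≠ 1 := fun h1 => hψx ((circChar_eq_one_iff ψ x).mp h1)
      have hne := trace_ind_ne (circChar ψ) (1 : H →* ℂ) (circChar_norm ψ) (fun h => rfl) x hne1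
      have h2 : (Matrix.trace (ind (circChar ψ) (x : G))
          - Matrix.trace (ind (1 : H →* ℂ) (x : G)))
          * ∑' g : (ConjClasses.mk (x : G)).carrier, ∑ i, e i i g = 0 := by
        rw [sub_mul, h, sub_self]
      rcases mul_eq_zero.mp h2 with h3 | h3
      · exact absurd (sub_eq_zero.mp h3) hne
      · exact h3

end Vale.Agent.P184
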