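import Vale.Agent.P184.Conv2

/-!
Kernels on `G × G` with the product of the l1 crossed product of bounded functions on `G`
(conjugation action) by `G`.  Function-level lemmas.
-/

namespace Vale.Agent.P184

open scoped BigOperators

variable {G : Type*} [Group G]

/-- kernel product -/
noncomputable def kconv (A B : G → G → ℂ) : G → G → ℂ :=
  fun k y => ∑' g, A g y * B (g⁻¹ * k) (g⁻¹ * y * g)

/-- domination of a kernel by a function of the first variable -/
def Dom (A : G → G → ℂ) (α : G → ℝ) : Prop := ∀ g y, ‖A g y‖ ≤ α g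

/-- real convolution -/
noncomputable def rconv (α β : G → ℝ) : G → ℝ := fun k => ∑' g, α g * β (g⁻¹ * k)

omit [Group G] in
theorem Dom.nonneg {A : G → G → ℂ} {α : G → ℝ} (h : Dom A α) (g : G) : 0 ≤ α g :=
  (norm_nonneg _).trans (h g g)

theorem summable_rprod {α β : G → ℝ} (hα : Summable α) (hβ : Summable β)
    (h0 : ∀ g, 0 ≤ α g) (h1 : ∀ g, 0 ≤ β g) :
    Summable fun p : G × G => α p.1 * β p.2 := hα.mul_of_nonneg hβ h0 h1

theorem summable_rshear {α β : G → ℝ} (hα : Summable α) (hβ : Summable β)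
    (h0 : ∀ g, 0 ≤ α g) (h1 : ∀ g, 0 ≤ β g) :
    Summable fun p : G × G => α p.1 * β (p.1⁻¹ * p.2) :=
  (Equiv.summable_iff (shear G).symm).mpr (summable_rprod hα hβ h0 h1)

theorem summable_rconv {α β : G → ℝ} (hα : Summable α) (hβ : Summable β)
    (h0 : ∀ g, 0 ≤ α g) (h1 : ∀ g, 0 ≤ β g) : Summable (rconv α β) :=
  (summable_rshear hα hβ h0 h1).prod_symm.prod

theorem summable_rconv_term {α β : G → ℝ} (hα : Summable α) (hβ : Summable β)
    (h0 : ∀ g, 0 ≤ α g) (h1 : ∀ g, 0 ≤ β g) (k : G) :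
    Summable fun g => α g * β (g⁻¹ * k) :=
  (summable_rshear hα hβ h0 h1).prod_symm.prod_factor k

theorem tsum_rconv {α β : G → ℝ} (hα : Summable α) (hβ : Summable β)
    (h0 : ∀ g, 0 ≤ α g) (h1 : ∀ g, 0 ≤ β g) :
    ∑' k, rconv α β k = (∑' g, α g) * ∑' g, β g := by
  have hS := summable_rshear hα hβ h0 h1
  rw [hα.tsum_mul_tsum hβ (summable_rprod hα hβ h0 h1),
    ← (shear G).symm.tsum_eq (fun p : G × G => α p.1 * β p.2)]
  have : (fun p : G × G => α ((shear G).symm p).1 * β ((shear G).symm p).2)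
      = fun p : G × G => α p.1 * β (p.1⁻¹ * p.2) := rfl
  rw [this, hS.tsum_prod]
  exact Summable.tsum_comm (f := fun g k => α g * β (g⁻¹ * k)) hS

theorem rconv_nonneg {α β : G → ℝ} (h0 : ∀ g, 0 ≤ α g) (h1 : ∀ g, 0 ≤ β g) (k : G) :
    0 ≤ rconv α β k := tsum_nonneg fun g => mul_nonneg (h0 g) (h1 _)

/-- shear and Fubini for a family dominated by a product -/
theorem shear_fubini {Φ : G × G → ℂ} {α β : G → ℝ} (hα : Summable α) (hβ : Summable β)
    (h0 : ∀ g, 0 ≤ α g) (h1 : ∀ g, 0 ≤ β g) (hΦ : ∀ p, ‖Φ p‖ ≤ α p.1 * β p.2) :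
    ∑' k, ∑' g, Φ (g, g⁻¹ * k) = ∑' p, Φ p := by
  have hs : Summable Φ := Summable.of_norm_bounded (summable_rprod hα hβ h0 h1) hΦ
  have hS : Summable fun p : G × G => Φ (p.1, p.1⁻¹ * p.2) :=
    (Equiv.summable_iff (shear G).symm).mpr hs
  rw [← (shear G).symm.tsum_eq Φ]
  have : (fun p : G × G => Φ ((shear G).symm p)) = fun p : G × G => Φ (p.1, p.1⁻¹ * p.2) := rfl
  rw [this, hS.tsum_prod]
  exact Summable.tsum_comm (f := fun g k => Φ (g, g⁻¹ * k)) hS

theorem summable_kconv_term {A B : G → G → ℂ} {α β : G → ℝ} (hα : Summable α)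
    (hβ : Summable β) (hA : Dom A α) (hB : Dom B β) (k y : G) :
    Summable fun g => A g y * B (g⁻¹ * k) (g⁻¹ * y * g) := by
  refine Summable.of_norm_bounded (summable_rconv_term hα hβ hA.nonneg hB.nonneg k) ?_
  intro g
  rw [norm_mul]
  exact mul_le_mul (hA _ _) (hB _ _) (norm_nonneg _) (hA.nonneg _)

theorem dom_kconv {A B : G → G → ℂ} {α β : G → ℝ} (hα : Summable α)
    (hβ : Summable β) (hA : Dom A α) (hB : Dom B β) : Dom (kconv A B) (rconv α β) := by
  intro k y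
  have hs := summable_rconv_term hα hβ hA.nonneg hB.nonneg k
  have hn : Summable fun g => ‖A g y * B (g⁻¹ * k) (g⁻¹ * y * g)‖ :=
    (summable_kconv_term hα hβ hA hB k y).norm
  refine (norm_tsum_le_tsum_norm hn).trans ?_
  refine hn.tsum_le_tsum (fun g => ?_) hs
  rw [norm_mul]
  exact mul_le_mul (hA _ _) (hB _ _) (norm_nonneg _) (hA.nonneg _)

theorem le_tsum_of_nonneg {β : G → ℝ} (hβ : Summable β) (h1 : ∀ g, 0 ≤ β g) (g : G) :
    β g ≤ ∑' k, β k := hβ.le_tsum g fun _ _ => h1 _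

theorem kconv_assoc {A B D : G → G → ℂ} {α β γ : G → ℝ} (hα : Summable α)
    (hβ : Summable β) (hγ : Summable γ) (hA : Dom A α) (hB : Dom B β) (hD : Dom D γ) :
    kconv (kconv A B) D = kconv A (kconv B D) := by
  funext k y
  set Φ : G × G → ℂ := fun p =>
    A p.1 y * B p.2 (p.1⁻¹ * y * p.1) * D ((p.1 * p.2)⁻¹ * k) ((p.1 * p.2)⁻¹ * y * (p.1 * p.2))
    with hΦdef
  have hΦ : ∀ p, ‖Φ p‖ ≤ (α p.1 * ∑' g, γ g) * β p.2 := by
    intro p
    rw [hΦdef]
    simp only [norm_mul]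
    have h1 := hA p.1 y
    have h2 := hB p.2 (p.1⁻¹ * y * p.1)
    have h3 := (hD ((p.1 * p.2)⁻¹ * k) ((p.1 * p.2)⁻¹ * y * (p.1 * p.2))).trans
      (le_tsum_of_nonneg hγ hD.nonneg _)
    have hT : 0 ≤ ∑' g, γ g := tsum_nonneg hD.nonneg
    calc ‖A p.1 y‖ * ‖B p.2 (p.1⁻¹ * y * p.1)‖
          * ‖D ((p.1 * p.2)⁻¹ * k) ((p.1 * p.2)⁻¹ * y * (p.1 * p.2))‖
        ≤ α p.1 * β p.2 * ∑' g, γ g :=
          mul_le_mul (mul_le_mul h1 h2 (norm_nonneg _) (hA.nonneg _)) h3 (norm_nonneg _)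
            (mul_nonneg (hA.nonneg _) (hB.nonneg _))
      _ = (α p.1 * ∑' g, γ g) * β p.2 := by ring
  have hα' : Summable fun g => α g * ∑' g, γ g := hα.mul_right _
  have hα0 : ∀ g, 0 ≤ α g * ∑' g, γ g :=
    fun g => mul_nonneg (hA.nonneg g) (tsum_nonneg hD.nonneg)
  have hsΦ : Summable Φ := Summable.of_norm_bounded
    (summable_rprod hα' hβ hα0 hB.nonneg) hΦ
  have e1 : kconv (kconv A B) D k y = ∑' h, ∑' g, Φ (g, g⁻¹ * h) := by
    unfold kconv
    refine tsum_congr fun h => ?_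
    rw [← tsum_mul_right]
    refine tsum_congr fun g => ?_
    simp only [hΦdef, mul_inv_cancel_left]
  have e2 : kconv A (kconv B D) k y = ∑' p, Φ p := by
    rw [hsΦ.tsum_prod]
    unfold kconv
    refine tsum_congr fun g => ?_
    rw [← tsum_mul_left]
    refine tsum_congr fun m => ?_
    simp only [hΦdef, mul_inv_rev, mul_assoc]
  rw [e1, e2]
  exact shear_fubini hα' hβ hα0 hB.nonneg hΦ

end Vale.Agent.P184
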