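import Vale.Agent.P184.KConv

/-!
The ring of dominated kernels, its gauge and its traces.
-/

namespace Vale.Agent.P184

open scoped BigOperators

/-- the additive subgroup of kernels dominated by a summable function of the first variable -/
def kasub (G : Type*) : AddSubgroup (G → G → ℂ) where
  carrier := {A | ∃ α : G → ℝ, Summable α ∧ Dom A α}
  add_mem' := by
    rintro A B ⟨α, hα, hA⟩ ⟨β, hβ, hB⟩
    exact ⟨fun g => α g + β g, hα.add hβ, fun g y =>
      (norm_add_le _ _).trans (add_le_add (hA g y) (hB g y))⟩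
  zero_mem' := ⟨fun _ => 0, summable_zero, fun g y => by simp⟩
  neg_mem' := by
    rintro A ⟨α, hα, hA⟩
    exact ⟨α, hα, fun g y => by simpa using hA g y⟩

/-- the type of dominated kernels -/
def KA (G : Type*) : Type _ := kasub G

namespace KA

variable {G : Type*}

instance : AddCommGroup (KA G) := inferInstanceAs (AddCommGroup (kasub G))

/-- underlying kernel -/
def fn (A : KA G) : G → G → ℂ := A.1

theorem exists_dom (A : KA G) : ∃ α : G → ℝ, Summable α ∧ Dom A.fn α := A.2

@[ext] theorem ext {A B : KA G} (h : A.fn = B.fn) : A = B := Subtype.ext h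

/-- constructor -/
def mk (A : G → G → ℂ) (h : ∃ α : G → ℝ, Summable α ∧ Dom A α) : KA G := ⟨A, h⟩

@[simp] theorem fn_mk (A : G → G → ℂ) (h) : (mk A h).fn = A := rfl
@[simp] theorem fn_add (A B : KA G) : (A + B).fn = A.fn + B.fn := rfl
@[simp] theorem fn_zero : (0 : KA G).fn = 0 := rfl
@[simp] theorem fn_neg (A : KA G) : (-A).fn = -A.fn := rfl
@[simp] theorem fn_sub (A B : KA G) : (A - B).fn = A.fn - B.fn := rfl

/-- `fn` as an additive homomorphism -/
def fnHom (G : Type*) : KA G →+ (G → G → ℂ) := (kasub G).subtype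

theorem fnHom_apply (A : KA G) : fnHom G A = A.fn := rfl

theorem fn_sum {κ : Type*} (s : Finset κ) (f : κ → KA G) :
    (∑ k ∈ s, f k).fn = ∑ k ∈ s, (f k).fn := by
  rw [← fnHom_apply, map_sum]
  rfl

/-- the sup norm in the second variable -/
noncomputable def sn (A : KA G) (g : G) : ℝ := ⨆ y, ‖A.fn g y‖

theorem bdd (A : KA G) (g : G) : BddAbove (Set.range fun y => ‖A.fn g y‖) := by
  obtain ⟨α, _, hA⟩ := A.exists_dom
  exact ⟨α g, by rintro _ ⟨y, rfl⟩; exact hA g y⟩

theorem le_sn (A : KA G) (g y : G) : ‖A.fn g y‖ ≤ A.sn g := le_ciSup (A.bdd g) y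

theorem dom_sn (A : KA G) : Dom A.fn A.sn := fun g y => A.le_sn g y

theorem sn_nonneg (A : KA G) (g : G) : 0 ≤ A.sn g := (norm_nonneg _).trans (A.le_sn g g)

theorem sn_le_of_dom (A : KA G) {α : G → ℝ} (h : Dom A.fn α) (g : G) : A.sn g ≤ α g := by
  have : Nonempty G := ⟨g⟩
  exact ciSup_le fun y => h g y

theorem summable_sn (A : KA G) : Summable A.sn := by
  obtain ⟨α, hα, hA⟩ := A.exists_dom
  exact Summable.of_nonneg_of_le A.sn_nonneg (A.sn_le_of_dom hA) hα

/-- the gauge -/
noncomputable def nrm (A : KA G) : ℝ := ∑' g, A.sn g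

theorem nrm_nonneg (A : KA G) : 0 ≤ A.nrm := tsum_nonneg A.sn_nonneg

theorem nrm_le_of_dom (A : KA G) {α : G → ℝ} (hα : Summable α) (h : Dom A.fn α) :
    A.nrm ≤ ∑' g, α g := A.summable_sn.tsum_le_tsum (A.sn_le_of_dom h) hα

theorem nrm_add_le (A B : KA G) : (A + B).nrm ≤ A.nrm + B.nrm := by
  unfold nrm
  rw [← A.summable_sn.tsum_add B.summable_sn]
  refine (A + B).nrm_le_of_dom (A.summable_sn.add B.summable_sn) fun g y => ?_
  exact (norm_add_le _ _).trans (add_le_add (A.le_sn g y) (B.le_sn g y))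

theorem nrm_zero : (0 : KA G).nrm = 0 := by
  refine le_antisymm ?_ (nrm_nonneg _)
  have h := (0 : KA G).nrm_le_of_dom (α := fun _ => 0) summable_zero (fun g y => by simp)
  simpa using h

theorem nrm_sum_le {κ : Type*} (s : Finset κ) (f : κ → KA G) :
    (∑ k ∈ s, f k).nrm ≤ ∑ k ∈ s, (f k).nrm := by
  classical
  induction s using Finset.induction_on with
  | empty => simp [nrm_zero]
  | insert k s hk ih =>
    rw [Finset.sum_insert hk, Finset.sum_insert hk]
    exact (nrm_add_le _ _).trans (by linarith)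

variable [Group G]

noncomputable instance : Mul (KA G) :=
  ⟨fun A B => mk (kconv A.fn B.fn)
    ⟨rconv A.sn B.sn, summable_rconv A.summable_sn B.summable_sn A.sn_nonneg B.sn_nonneg,
      dom_kconv A.summable_sn B.summable_sn A.dom_sn B.dom_sn⟩⟩

/-- the unit kernel -/
noncomputable def oneK (G : Type*) [Group G] : G → G → ℂ := fun g _ => delta G g

noncomputable instance : One (KA G) :=
  ⟨mk (oneK G) ⟨fun g => ‖delta G g‖, summable_delta, fun _ _ => le_rfl⟩⟩

@[simp] theorem fn_mul (A B : KA G) : (A * B).fn = kconv A.fn B.fn := rfl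
@[simp] theorem fn_one : (1 : KA G).fn = oneK G := rfl

theorem one_kconv (A : G → G → ℂ) : kconv (oneK G) A = A := by
  funext k y
  rw [kconv, tsum_eq_single 1]
  · simp [oneK, delta_one]
  · intro h hh
    simp [oneK, delta_ne hh]

theorem kconv_one (A : G → G → ℂ) : kconv A (oneK G) = A := by
  funext k y
  rw [kconv, tsum_eq_single k]
  · simp [oneK, delta_one]
  · intro h hh
    have : h⁻¹ * k ≠ 1 := by
      intro h1
      exact hh (inv_mul_eq_one.mp h1)
    simp [oneK, delta_ne this]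

theorem kconv_add' (A B D : KA G) :
    kconv A.fn (B.fn + D.fn) = kconv A.fn B.fn + kconv A.fn D.fn := by
  funext k y
  simp only [kconv, Pi.add_apply, mul_add]
  exact (summable_kconv_term A.summable_sn B.summable_sn A.dom_sn B.dom_sn k y).tsum_add
    (summable_kconv_term A.summable_sn D.summable_sn A.dom_sn D.dom_sn k y)

theorem add_kconv' (A B D : KA G) :
    kconv (A.fn + B.fn) D.fn = kconv A.fn D.fn + kconv B.fn D.fn := by
  funext k y
  simp only [kconv, Pi.add_apply, add_mul]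
  exact (summable_kconv_term A.summable_sn D.summable_sn A.dom_sn D.dom_sn k y).tsum_add
    (summable_kconv_term B.summable_sn D.summable_sn B.dom_sn D.dom_sn k y)

noncomputable instance : Ring (KA G) :=
  { (inferInstance : AddCommGroup (KA G)) with
    mul := (· * ·)
    one := 1
    mul_assoc := fun A B D => ext (kconv_assoc A.summable_sn B.summable_sn D.summable_sn
      A.dom_sn B.dom_sn D.dom_sn)
    one_mul := fun A => ext (one_kconv A.fn)
    mul_one := fun A => ext (kconv_one A.fn)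
    left_distrib := fun A B D => ext (kconv_add' A B D)
    right_distrib := fun A B D => ext (add_kconv' A B D)
    zero_mul := fun A => ext (by funext k y; simp [kconv])
    mul_zero := fun A => ext (by funext k y; simp [kconv]) }

theorem nrm_mul_le (A B : KA G) : (A * B).nrm ≤ A.nrm * B.nrm := by
  have h := (A * B).nrm_le_of_dom
    (summable_rconv A.summable_sn B.summable_sn A.sn_nonneg B.sn_nonneg)
    (dom_kconv A.summable_sn B.summable_sn A.dom_sn B.dom_sn)
  rwa [tsum_rconv A.summable_sn B.summable_sn A.sn_nonneg B.sn_nonneg] at h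

/-- diagonal pairing with a weight: the trace -/
noncomputable def dtr (w : G → ℂ) (A : KA G) : ℂ := ∑' g, w g * A.fn g g

theorem summable_dtr {w : G → ℂ} {M : ℝ} (hw : ∀ g, ‖w g‖ ≤ M) (A : KA G) :
    Summable fun g => w g * A.fn g g := by
  refine Summable.of_norm_bounded (A.summable_sn.mul_left M) ?_
  intro g
  rw [norm_mul]
  exact mul_le_mul (hw g) (A.le_sn g g) (norm_nonneg _) ((norm_nonneg _).trans (hw g))

theorem dtr_add {w : G → ℂ} {M : ℝ} (hw : ∀ g, ‖w g‖ ≤ M) (A B : KA G) :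
    dtr w (A + B) = dtr w A + dtr w B := by
  unfold dtr
  rw [← (summable_dtr hw A).tsum_add (summable_dtr hw B)]
  refine tsum_congr fun g => ?_
  simp [mul_add]

theorem norm_dtr_le {w : G → ℂ} (hw : ∀ g, ‖w g‖ ≤ 1) (A : KA G) : ‖dtr w A‖ ≤ A.nrm := by
  unfold dtr nrm
  have hs : Summable fun g => ‖w g * A.fn g g‖ := (summable_dtr hw A).norm
  refine (norm_tsum_le_tsum_norm hs).trans ?_
  refine hs.tsum_le_tsum (fun g => ?_) A.summable_sn
  rw [norm_mul]
  calc ‖w g‖ * ‖A.fn g g‖ ≤ 1 * A.sn g :=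
        mul_le_mul (hw g) (A.le_sn g g) (norm_nonneg _) zero_le_one
    _ = A.sn g := one_mul _

theorem dtr_mul_eq {w : G → ℂ} (hw : ∀ g, ‖w g‖ ≤ 1) (A B : KA G) :
    dtr w (A * B) = ∑' p : G × G, w (p.1 * p.2) * (A.fn p.1 (p.1 * p.2) * B.fn p.2 (p.2 * p.1)) := by
  have hΦ : ∀ p : G × G,
      ‖w (p.1 * p.2) * (A.fn p.1 (p.1 * p.2) * B.fn p.2 (p.2 * p.1))‖ ≤ A.sn p.1 * B.sn p.2 := by
    intro p
    rw [norm_mul, norm_mul]
    calc ‖w (p.1 * p.2)‖ * (‖A.fn p.1 (p.1 * p.2)‖ * ‖B.fn p.2 (p.2 * p.1)‖)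
        ≤ 1 * (A.sn p.1 * B.sn p.2) :=
          mul_le_mul (hw _) (mul_le_mul (A.le_sn _ _) (B.le_sn _ _) (norm_nonneg _)
            (A.sn_nonneg _)) (by positivity) zero_le_one
      _ = A.sn p.1 * B.sn p.2 := one_mul _
  rw [← shear_fubini A.summable_sn B.summable_sn A.sn_nonneg B.sn_nonneg hΦ]
  unfold dtr
  refine tsum_congr fun k => ?_
  rw [fn_mul, kconv, ← tsum_mul_left]
  refine tsum_congr fun g => ?_
  simp only [mul_inv_cancel_left]

theorem dtr_mul_comm {w : G → ℂ} (hw : ∀ g, ‖w g‖ ≤ 1)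
    (hcl : ∀ g h, w (g * h) = w (h * g)) (A B : KA G) :
    dtr w (A * B) = dtr w (B * A) := by
  rw [dtr_mul_eq hw, dtr_mul_eq hw, ← (Equiv.prodComm G G).tsum_eq]
  refine tsum_congr fun p => ?_
  simp only [Equiv.prodComm_apply, Prod.fst_swap, Prod.snd_swap]
  rw [hcl, mul_comm (A.fn _ _)]

end KA

end Vale.Agent.P184
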