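import Vale.Agent.P184.Abstract

/-!
Generic closeness lemma for idempotent matrices over a ring with a gauge and a bounded trace.
-/

namespace Vale.Agent.P184

open scoped BigOperators

variable {R : Type*} [Ring R] {κ : Type*} [Fintype κ]

theorem gen_sum_le (N : R → ℝ) (hz : N 0 = 0) (hadd : ∀ a b, N (a + b) ≤ N a + N b)
    {γ : Type*} (s : Finset γ) (f : γ → R) : N (∑ k ∈ s, f k) ≤ ∑ k ∈ s, N (f k) := by
  classical
  induction s using Finset.induction_on with
  | empty => simp [hz]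
  | insert k s hk ih =>
    rw [Finset.sum_insert hk, Finset.sum_insert hk]
    exact (hadd _ _).trans (by linarith)

theorem gen_mnrm_mul_le (N : R → ℝ) (h0 : ∀ a, 0 ≤ N a) (hz : N 0 = 0)
    (hadd : ∀ a b, N (a + b) ≤ N a + N b) (hmul : ∀ a b, N (a * b) ≤ N a * N b)
    (M M' : Matrix κ κ R) :
    ∑ k, ∑ l, N ((M * M') k l) ≤ (∑ k, ∑ l, N (M k l)) * ∑ k, ∑ l, N (M' k l) := by
  have h1 : ∀ k l, N ((M * M') k l) ≤ ∑ j, N (M k j) * N (M' j l) := by
    intro k l
    rw [Matrix.mul_apply]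
    exact (gen_sum_le N hz hadd _ _).trans (Finset.sum_le_sum fun j _ => hmul _ _)
  calc ∑ k, ∑ l, N ((M * M') k l)
      ≤ ∑ k, ∑ l, ∑ j, N (M k j) * N (M' j l) :=
        Finset.sum_le_sum fun k _ => Finset.sum_le_sum fun l _ => h1 k l
    _ = ∑ k, ∑ j, N (M k j) * ∑ l, N (M' j l) := by
        refine Finset.sum_congr rfl fun k _ => ?_
        rw [Finset.sum_comm]
        exact Finset.sum_congr rfl fun j _ => (Finset.mul_sum _ _ _).symm
    _ ≤ ∑ k, ∑ j, N (M k j) * ∑ j', ∑ l, N (M' j' l) := by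
        refine Finset.sum_le_sum fun k _ => Finset.sum_le_sum fun j _ => ?_
        refine mul_le_mul_of_nonneg_left ?_ (h0 _)
        exact Finset.single_le_sum (f := fun j' => ∑ l, N (M' j' l))
          (fun j' _ => Finset.sum_nonneg fun _ _ => h0 _) (Finset.mem_univ j)
    _ = (∑ k, ∑ l, N (M k l)) * ∑ k, ∑ l, N (M' k l) := by
        rw [Finset.sum_mul]
        exact Finset.sum_congr rfl fun k _ => (Finset.sum_mul _ _ _).symm

/-- the matrix trace composed with an additive map, as an additive homomorphism -/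
def genTr (t : R →+ ℂ) : Matrix κ κ R →+ ℂ where
  toFun M := ∑ k, t (M k k)
  map_zero' := by simp
  map_add' M M' := by simp [Finset.sum_add_distrib]

theorem genTr_apply (t : R →+ ℂ) (M : Matrix κ κ R) : genTr t M = ∑ k, t (M k k) := rfl

theorem gen_close [DecidableEq κ] (N : R → ℝ) (t : R →+ ℂ) (h0 : ∀ a, 0 ≤ N a) (hz : N 0 = 0)
    (hadd : ∀ a b, N (a + b) ≤ N a + N b) (hmul : ∀ a b, N (a * b) ≤ N a * N b)
    (htr : ∀ a b, t (a * b) = t (b * a)) (htN : ∀ a, ‖t a‖ ≤ N a)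
    {E F : Matrix κ κ R} (hE : E * E = E) (hF : F * F = F)
    (hclose : ∑ k, ∑ l, N ((E - F) k l) < 1) :
    ∑ k, t (E k k) = ∑ k, t (F k k) := by
  have h1 : ∀ a b : Matrix κ κ R, genTr t (a * b) = genTr t (b * a) := by
    intro a b
    simp only [genTr_apply, Matrix.mul_apply, map_sum]
    rw [Finset.sum_comm]
    exact Finset.sum_congr rfl fun k _ => Finset.sum_congr rfl fun l _ => htr _ _
  have h2 : ∀ a : Matrix κ κ R, ‖genTr t a‖ ≤ ∑ k, ∑ l, N (a k l) := by
    intro a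
    rw [genTr_apply]
    refine (norm_sum_le _ _).trans (Finset.sum_le_sum fun k _ => ?_)
    refine (htN _).trans ?_
    exact Finset.single_le_sum (f := fun l => N (a k l)) (fun l _ => h0 _) (Finset.mem_univ k)
  have h4 : ∀ a b : Matrix κ κ R, (∑ k, ∑ l, N ((a * b) k l))
      ≤ (∑ k, ∑ l, N (a k l)) * ∑ k, ∑ l, N (b k l) := gen_mnrm_mul_le N h0 hz hadd hmul
  have h5 : ∀ a : Matrix κ κ R, 0 ≤ ∑ k, ∑ l, N (a k l) :=
    fun a => Finset.sum_nonneg fun _ _ => Finset.sum_nonneg fun _ _ => h0 _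
  have h3 : genTr t E = genTr t F :=
    @trace_eq_of_close (Matrix κ κ R) _ (genTr t) (fun a => ∑ k, ∑ l, N (a k l)) h1 h4 h5 h2
      E F hE hF hclose
  exact h3

end Vale.Agent.P184
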