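import Vale.Agent.P184.Twist

/-!
The closeness theorem stated for raw families of summable functions.
-/

namespace Vale.Agent.P184

open scoped BigOperators

variable {G : Type*} [Group G] {ι μ : Type*} [Fintype ι] [Fintype μ]

/-- the indicator weight of a conjugacy class -/
noncomputable def cw (C : ConjClasses G) : G → ℂ := Set.indicator C.carrier (fun _ => 1)

theorem cw_norm_le (C : ConjClasses G) (g : G) : ‖cw C g‖ ≤ 1 := by
  classical
  unfold cw
  by_cases h : g ∈ C.carrier
  · simp [Set.indicator_of_mem h]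
  · simp [Set.indicator_of_notMem h]

theorem mem_carrier_comm (C : ConjClasses G) (g h : G) :
    g * h ∈ C.carrier ↔ h * g ∈ C.carrier := by
  rw [ConjClasses.mem_carrier_iff_mk_eq, ConjClasses.mem_carrier_iff_mk_eq]
  have : ConjClasses.mk (g * h) = ConjClasses.mk (h * g) := by
    rw [ConjClasses.mk_eq_mk_iff_isConj, isConj_iff]
    exact ⟨h, by group⟩
  rw [this]

theorem cw_comm (C : ConjClasses G) (g h : G) : cw C (g * h) = cw C (h * g) := by
  classical
  unfold cw
  by_cases h1 : g * h ∈ C.carrier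
  · rw [Set.indicator_of_mem h1, Set.indicator_of_mem ((mem_carrier_comm C g h).mp h1)]
  · rw [Set.indicator_of_notMem h1,
      Set.indicator_of_notMem (fun h2 => h1 ((mem_carrier_comm C g h).mpr h2))]

theorem trace_conj [DecidableEq μ] (ρ : G →* Matrix μ μ ℂ) {x g : G}
    (hg : g ∈ (ConjClasses.mk x).carrier) : Matrix.trace (ρ g) = Matrix.trace (ρ x) := by
  rw [ConjClasses.mem_carrier_iff_mk_eq, ConjClasses.mk_eq_mk_iff_isConj, isConj_iff] at hg
  obtain ⟨c, hc⟩ := hg
  rw [← hc, map_mul, Matrix.trace_mul_comm, ← map_mul]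
  simp

/-- the matrix over the convolution ring attached to a raw family -/
def toMat (e : ι → ι → G → ℂ) (hs : ∀ i j, Summable fun g => ‖e i j g‖) :
    Matrix ι ι (L1 G) := fun i j => L1.mk (e i j) (hs i j)

theorem toMat_idem (e : ι → ι → G → ℂ) (hs : ∀ i j, Summable fun g => ‖e i j g‖)
    (he : ∀ i j g, ∑ k, ∑' h, e i k h * e k j (h⁻¹ * g) = e i j g) :
    toMat e hs * toMat e hs = toMat e hs := by
  funext i j
  apply L1.ext
  funext g
  rw [Matrix.mul_apply, L1.fn_sum, Finset.sum_apply]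
  exact he i j g

theorem mtr_cw [DecidableEq μ] (e : ι → ι → G → ℂ) (hs : ∀ i j, Summable fun g => ‖e i j g‖)
    (ρ : G →* Matrix μ μ ℂ) (x : G) :
    mtr (fun g => cw (ConjClasses.mk x) g * Matrix.trace (ρ g)) (toMat e hs)
      = Matrix.trace (ρ x) * ∑' g : (ConjClasses.mk x).carrier, ∑ i, e i i g := by
  classical
  unfold mtr L1.pair
  have h1 : ∀ i, ∑' g, cw (ConjClasses.mk x) g * Matrix.trace (ρ g) * (toMat e hs i i).fn g
      = Matrix.trace (ρ x) * ∑' g, cw (ConjClasses.mk x) g * e i i g := by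
    intro i
    rw [← tsum_mul_left]
    refine tsum_congr fun g => ?_
    show cw (ConjClasses.mk x) g * Matrix.trace (ρ g) * e i i g = _
    by_cases hg : g ∈ (ConjClasses.mk x).carrier
    · rw [trace_conj ρ hg]; ring
    · simp [cw, Set.indicator_of_notMem hg]
  rw [Finset.sum_congr rfl fun i _ => h1 i, ← Finset.mul_sum]
  congr 1
  rw [tsum_subtype (ConjClasses.mk x).carrier (fun g => ∑ i, e i i g),
    ← Summable.tsum_finsetSum]
  · refine tsum_congr fun g => ?_
    by_cases hg : g ∈ (ConjClasses.mk x).carrier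
    · simp [cw, Set.indicator_of_mem hg]
    · simp [cw, Set.indicator_of_notMem hg]
  · intro i _
    exact L1.summable_pair (cw_norm_le _) (toMat e hs i i)

/-- Closeness theorem: two bounded representations that are close on the support of the
idempotent have characters that agree against each Hattori-Stallings coefficient. -/
theorem core_raw [DecidableEq μ] (e : ι → ι → G → ℂ)
    (hs : ∀ i j, Summable fun g => ‖e i j g‖)
    (he : ∀ i j g, ∑ k, ∑' h, e i k h * e k j (h⁻¹ * g) = e i j g)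
    (ρ ρ' : G →* Matrix μ μ ℂ) {K K' : ℝ}
    (hρ : ∀ g a b, ‖ρ g a b‖ ≤ K) (hρ' : ∀ g a b, ‖ρ' g a b‖ ≤ K')
    (hclose : ∑ i, ∑ a, ∑ j, ∑ b, ∑' g, ‖ρ g a b - ρ' g a b‖ * ‖e i j g‖ < 1) (x : G) :
    Matrix.trace (ρ x) * ∑' g : (ConjClasses.mk x).carrier, ∑ i, e i i g
      = Matrix.trace (ρ' x) * ∑' g : (ConjClasses.mk x).carrier, ∑ i, e i i g := by
  classical
  rw [← mtr_cw e hs ρ x, ← mtr_cw e hs ρ' x]
  exact core_ring ρ ρ' hρ hρ' (cw_norm_le _) (cw_comm _) (toMat_idem e hs he) hclose

end Vale.Agent.P184
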