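import Vale.Agent.P184.KRing
import Vale.Agent.P184.MatGen
import Vale.Agent.P184.Raw

/-!
Twisting by circle valued cocycles of the conjugation action.
-/

namespace Vale.Agent.P184

open scoped BigOperators Topology
open Filter

variable {G : Type*} [Group G] {ι : Type*} [Fintype ι]

/-- the twisted embedding of a raw family into matrices over the kernel ring -/
noncomputable def ktw (u : G → G → ℂ) (hu : ∀ g y, ‖u g y‖ ≤ 1) (e : ι → ι → G → ℂ)
    (hs : ∀ i j, Summable fun g => ‖e i j g‖) : Matrix ι ι (KA G) :=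
  fun i j => KA.mk (fun g y => u g y * e i j g) ⟨fun g => ‖e i j g‖, hs i j, fun g y => by
    rw [norm_mul]
    calc ‖u g y‖ * ‖e i j g‖ ≤ 1 * ‖e i j g‖ :=
          mul_le_mul_of_nonneg_right (hu g y) (norm_nonneg _)
      _ = ‖e i j g‖ := one_mul _⟩

theorem ktw_fn (u : G → G → ℂ) (hu : ∀ g y, ‖u g y‖ ≤ 1) (e : ι → ι → G → ℂ)
    (hs : ∀ i j, Summable fun g => ‖e i j g‖) (i j : ι) (g y : G) :
    (ktw u hu e hs i j).fn g y = u g y * e i j g := rfl

theorem ktw_idem (u : G → G → ℂ) (hu : ∀ g y, ‖u g y‖ ≤ 1)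
    (hcoc : ∀ g h y, u (g * h) y = u g y * u h (g⁻¹ * y * g)) (e : ι → ι → G → ℂ)
    (hs : ∀ i j, Summable fun g => ‖e i j g‖)
    (he : ∀ i j g, ∑ k, ∑' h, e i k h * e k j (h⁻¹ * g) = e i j g) :
    ktw u hu e hs * ktw u hu e hs = ktw u hu e hs := by
  funext i j
  apply KA.ext
  funext k y
  rw [Matrix.mul_apply, KA.fn_sum, Finset.sum_apply, Finset.sum_apply, ktw_fn, ← he i j k,
    Finset.mul_sum]
  refine Finset.sum_congr rfl fun l _ => ?_
  rw [KA.fn_mul, kconv, ← tsum_mul_left]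
  refine tsum_congr fun g => ?_
  rw [ktw_fn, ktw_fn]
  have h1 : u k y = u g y * u (g⁻¹ * k) (g⁻¹ * y * g) := by
    rw [← hcoc, mul_inv_cancel_left]
  rw [h1]
  ring

/-- closeness theorem for cocycles -/
theorem core_cocycle (e : ι → ι → G → ℂ) (hs : ∀ i j, Summable fun g => ‖e i j g‖)
    (he : ∀ i j g, ∑ k, ∑' h, e i k h * e k j (h⁻¹ * g) = e i j g)
    (u u' : G → G → ℂ) (hu : ∀ g y, ‖u g y‖ ≤ 1) (hu' : ∀ g y, ‖u' g y‖ ≤ 1)
    (hcoc : ∀ g h y, u (g * h) y = u g y * u h (g⁻¹ * y * g))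
    (hcoc' : ∀ g h y, u' (g * h) y = u' g y * u' h (g⁻¹ * y * g))
    (b : G → ℝ) (hb : ∀ g y, ‖u g y - u' g y‖ ≤ b g) (hb2 : ∀ g, b g ≤ 2)
    (hclose : ∑ i, ∑ j, ∑' g, b g * ‖e i j g‖ < 1)
    {w : G → ℂ} (hw : ∀ g, ‖w g‖ ≤ 1) (hcl : ∀ g h, w (g * h) = w (h * g)) :
    ∑ i, ∑' g, w g * (u g g * e i i g) = ∑ i, ∑' g, w g * (u' g g * e i i g) := by
  classical
  have hb0 : ∀ g, 0 ≤ b g := fun g => (norm_nonneg _).trans (hb g g)
  have hsum : ∀ i j, Summable fun g => b g * ‖e i j g‖ := by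
    intro i j
    refine Summable.of_nonneg_of_le (fun g => mul_nonneg (hb0 g) (norm_nonneg _)) (fun g => ?_)
      ((hs i j).mul_left 2)
    exact mul_le_mul_of_nonneg_right (hb2 g) (norm_nonneg _)
  have hle : ∑ i, ∑ j, KA.nrm ((ktw u hu e hs - ktw u' hu' e hs) i j) < 1 := by
    refine lt_of_le_of_lt ?_ hclose
    refine Finset.sum_le_sum fun i _ => Finset.sum_le_sum fun j _ => ?_
    refine KA.nrm_le_of_dom _ (hsum i j) fun g y => ?_
    show ‖u g y * e i j g - u' g y * e i j g‖ ≤ _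
    rw [← sub_mul, norm_mul]
    exact mul_le_mul_of_nonneg_right (hb g y) (norm_nonneg _)
  exact gen_close (R := KA G) KA.nrm (AddMonoidHom.mk' (KA.dtr w) (KA.dtr_add hw))
    KA.nrm_nonneg KA.nrm_zero KA.nrm_add_le KA.nrm_mul_le (KA.dtr_mul_comm hw hcl)
    (KA.norm_dtr_le hw) (ktw_idem u hu hcoc e hs he) (ktw_idem u' hu' hcoc' e hs he) hle

end Vale.Agent.P184
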