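import Vale.Agent.P184.Conv2

/-!
The ring of absolutely summable complex functions on a discrete group (convolution product).
-/

namespace Vale.Agent.P184

open scoped BigOperators

/-- the additive subgroup of absolutely summable functions -/
def l1sub (G : Type*) : AddSubgroup (G → ℂ) where
  carrier := {a | Summable fun g => ‖a g‖}
  add_mem' := fun {a b} ha hb =>
    Summable.of_nonneg_of_le (fun _ => norm_nonneg _) (fun g => norm_add_le (a g) (b g))
      (Summable.add ha hb)
  zero_mem' := by
    show Summable fun g : G => ‖(0 : G → ℂ) g‖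
    simp
  neg_mem' := fun {a} ha => by
    show Summable fun g => ‖(-a) g‖
    simpa using ha

/-- the type of absolutely summable functions -/
def L1 (G : Type*) : Type _ := l1sub G

namespace L1

variable {G : Type*}

instance : AddCommGroup (L1 G) := inferInstanceAs (AddCommGroup (l1sub G))

/-- underlying function -/
def fn (a : L1 G) : G → ℂ := a.1

theorem summable (a : L1 G) : Summable fun g => ‖a.fn g‖ := a.2

@[ext] theorem ext {a b : L1 G} (h : a.fn = b.fn) : a = b := Subtype.ext h

/-- constructor -/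
def mk (a : G → ℂ) (ha : Summable fun g => ‖a g‖) : L1 G := ⟨a, ha⟩

@[simp] theorem fn_mk (a : G → ℂ) (ha : Summable fun g => ‖a g‖) : (mk a ha).fn = a := rfl
@[simp] theorem fn_add (a b : L1 G) : (a + b).fn = a.fn + b.fn := rfl
@[simp] theorem fn_zero : (0 : L1 G).fn = 0 := rfl
@[simp] theorem fn_neg (a : L1 G) : (-a).fn = -a.fn := rfl
@[simp] theorem fn_sub (a b : L1 G) : (a - b).fn = a.fn - b.fn := rfl

/-- `fn` as an additive homomorphism -/
def fnHom (G : Type*) : L1 G →+ (G → ℂ) := (l1sub G).subtype

theorem fnHom_apply (a : L1 G) : fnHom G a = a.fn := rfl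

theorem fn_sum {κ : Type*} (s : Finset κ) (f : κ → L1 G) :
    (∑ k ∈ s, f k).fn = ∑ k ∈ s, (f k).fn := by
  rw [← fnHom_apply, map_sum]
  rfl

variable [Group G]

noncomputable instance : Mul (L1 G) :=
  ⟨fun a b => mk (conv a.fn b.fn) (summable_norm_conv a.summable b.summable)⟩

noncomputable instance : One (L1 G) := ⟨mk (delta G) summable_delta⟩

@[simp] theorem fn_mul (a b : L1 G) : (a * b).fn = conv a.fn b.fn := rfl
@[simp] theorem fn_one : (1 : L1 G).fn = delta G := rfl

noncomputable instance : Ring (L1 G) :=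
  { (inferInstance : AddCommGroup (L1 G)) with
    mul := (· * ·)
    one := 1
    mul_assoc := fun a b c => ext (conv_assoc a.summable b.summable c.summable)
    one_mul := fun a => ext (delta_conv a.fn)
    mul_one := fun a => ext (conv_delta a.fn)
    left_distrib := fun a b c => ext (conv_add a.summable b.summable c.summable)
    right_distrib := fun a b c => ext (add_conv a.summable b.summable c.summable)
    zero_mul := fun a => ext (zero_conv a.fn)
    mul_zero := fun a => ext (conv_zero a.fn) }

/-- the l1 norm -/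
noncomputable def nrm (a : L1 G) : ℝ := ∑' g, ‖a.fn g‖

theorem nrm_nonneg (a : L1 G) : 0 ≤ a.nrm := tsum_nonneg fun _ => norm_nonneg _

theorem nrm_mul_le (a b : L1 G) : (a * b).nrm ≤ a.nrm * b.nrm :=
  tsum_norm_conv_le a.summable b.summable

theorem nrm_add_le (a b : L1 G) : (a + b).nrm ≤ a.nrm + b.nrm := by
  unfold nrm
  rw [← a.summable.tsum_add b.summable]
  exact (a + b).summable.tsum_le_tsum (fun g => norm_add_le _ _) (a.summable.add b.summable)

theorem nrm_zero : (0 : L1 G).nrm = 0 := by simp [nrm]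

theorem nrm_sum_le {κ : Type*} (s : Finset κ) (f : κ → L1 G) :
    (∑ k ∈ s, f k).nrm ≤ ∑ k ∈ s, (f k).nrm := by
  classical
  induction s using Finset.induction_on with
  | empty => simp [nrm_zero]
  | insert k s hk ih =>
    rw [Finset.sum_insert hk, Finset.sum_insert hk]
    exact (nrm_add_le _ _).trans (by linarith)

/-- pairing with a weight function -/
noncomputable def pair (w : G → ℂ) (a : L1 G) : ℂ := ∑' g, w g * a.fn g

theorem summable_pair {w : G → ℂ} {M : ℝ} (hw : ∀ g, ‖w g‖ ≤ M) (a : L1 G) :
    Summable fun g => w g * a.fn g := by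
  refine Summable.of_norm_bounded (a.summable.mul_left M) ?_
  intro g
  rw [norm_mul]
  exact mul_le_mul_of_nonneg_right (hw g) (norm_nonneg _)

theorem pair_add {w : G → ℂ} {M : ℝ} (hw : ∀ g, ‖w g‖ ≤ M) (a b : L1 G) :
    pair w (a + b) = pair w a + pair w b := by
  unfold pair
  rw [← (summable_pair hw a).tsum_add (summable_pair hw b)]
  refine tsum_congr fun g => ?_
  simp [mul_add]

theorem norm_pair_le {w : G → ℂ} (hw : ∀ g, ‖w g‖ ≤ 1) (a : L1 G) :
    ‖pair w a‖ ≤ a.nrm := by
  unfold pair nrm
  have hs : Summable fun g => ‖w g * a.fn g‖ := (summable_pair hw a).norm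
  refine (norm_tsum_le_tsum_norm hs).trans ?_
  refine hs.tsum_le_tsum (fun g => ?_) a.summable
  rw [norm_mul]
  calc ‖w g‖ * ‖a.fn g‖ ≤ 1 * ‖a.fn g‖ := mul_le_mul_of_nonneg_right (hw g) (norm_nonneg _)
    _ = ‖a.fn g‖ := one_mul _

theorem pair_mul_comm {w : G → ℂ} {M : ℝ} (hw : ∀ g, ‖w g‖ ≤ M)
    (hcl : ∀ g h, w (g * h) = w (h * g)) (a b : L1 G) :
    pair w (a * b) = pair w (b * a) := by
  unfold pair
  rw [fn_mul, fn_mul, tsum_weight_conv a.summable b.summable hw,
    tsum_weight_conv b.summable a.summable hw, ← (Equiv.prodComm G G).tsum_eq]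
  refine tsum_congr fun p => ?_
  simp only [Equiv.prodComm_apply, Prod.fst_swap, Prod.snd_swap]
  rw [hcl, mul_comm (a.fn p.2)]

end L1

end Vale.Agent.P184
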