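import Vale.Agent.P184.Cocycle

/-!
Vanishing of the Hattori-Stallings coefficient at a class `[x]` when the centralizer of `x`
carries a real character, nonzero at `x`, which is dominated by a length function of `G`.
-/

namespace Vale.Agent.P184

open scoped BigOperators

variable {G : Type*} [Group G] {ι : Type*} [Fintype ι]

/-- A function on `G` which is equivariant for right multiplication by the centralizer of `x`
and moves by a bounded amount under each left multiplication kills the coefficient at `[x]`. -/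
theorem equivariant_raw (e : ι → ι → G → ℂ) (hs : ∀ i j, Summable fun g => ‖e i j g‖)
    (he : ∀ i j g, ∑ k, ∑' h, e i k h * e k j (h⁻¹ * g) = e i j g)
    (F : G → ℝ) (ψ : G → ℝ) (x : G)
    (hF : ∀ g z, Commute z x → F (g * z) = F g + ψ z)
    (hL : ∀ h, ∃ K, ∀ g, |F (h * g) - F g| ≤ K) (hx : ψ x ≠ 0) :
    ∑' g : (ConjClasses.mk x).carrier, ∑ i, e i i g = 0 := by
  classical
  set P : G → Prop := fun y => ∃ s, s * x * s⁻¹ = y with hP
  set σ : G → G := fun y => if h : P y then h.choose else 1 with hσ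
  have hσP : ∀ y, P y → σ y * x * (σ y)⁻¹ = y := by
    intro y hy
    simp only [hσ, dif_pos hy]
    exact hy.choose_spec
  have hPconj : ∀ g y, P y → P (g⁻¹ * y * g) := by
    rintro g y ⟨s, rfl⟩
    exact ⟨g⁻¹ * s, by group⟩
  have hPconj' : ∀ g y, ¬ P y → ¬ P (g⁻¹ * y * g) := by
    intro g y hy h
    apply hy
    have := hPconj g⁻¹ _ h
    have e1 : g⁻¹⁻¹ * (g⁻¹ * y * g) * g⁻¹ = y := by group
    rwa [e1] at this
  set c : G → G → ℝ := fun g y => if P y then F (σ y) - F (g⁻¹ * σ y) else 0 with hc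
  have hcomm : ∀ g y, P y → Commute ((σ y)⁻¹ * g * σ (g⁻¹ * y * g)) x := by
    intro g y hy
    have h1 := hσP y hy
    have h2 := hσP _ (hPconj g y hy)
    set a := σ y
    set b := σ (g⁻¹ * y * g)
    have h3 : b * x = g⁻¹ * y * g * b := by
      rw [← h2]; group
    have h4 : a⁻¹ * y = x * a⁻¹ := by
      rw [← h1]; group
    show a⁻¹ * g * b * x = x * (a⁻¹ * g * b)
    calc a⁻¹ * g * b * x = a⁻¹ * g * (b * x) := by group
      _ = a⁻¹ * g * (g⁻¹ * y * g * b) := by rw [h3]
      _ = (a⁻¹ * y) * (g * b) := by group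
      _ = x * a⁻¹ * (g * b) := by rw [h4]
      _ = x * (a⁻¹ * g * b) := by group
  have hcoc : ∀ g h y, c (g * h) y = c g y + c h (g⁻¹ * y * g) := by
    intro g h y
    by_cases hy : P y
    · have hy' := hPconj g y hy
      simp only [hc, if_pos hy, if_pos hy']
      have hz := hcomm g y hy
      set z := (σ y)⁻¹ * g * σ (g⁻¹ * y * g) with hzdef
      have e1 : σ (g⁻¹ * y * g) = g⁻¹ * σ y * z := by rw [hzdef]; group
      have e2 : h⁻¹ * σ (g⁻¹ * y * g) = (g * h)⁻¹ * σ y * z := by rw [e1]; group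
      rw [e2, e1, hF _ _ hz, hF _ _ hz]
      ring
    · have hy' := hPconj' g y hy
      simp only [hc, if_neg hy, if_neg hy', add_zero]
  have hbd : ∀ g, ∃ K, ∀ y, |c g y| ≤ K := by
    intro g
    obtain ⟨K, hK⟩ := hL g
    have hK0 : 0 ≤ K := (abs_nonneg _).trans (hK 1)
    refine ⟨K, fun y => ?_⟩
    by_cases hy : P y
    · simp only [hc, if_pos hy]
      have := hK (g⁻¹ * σ y)
      rwa [mul_inv_cancel_left] at this
    · simp only [hc, if_neg hy, abs_zero]
      exact hK0
  have hPx : P x := ⟨1, by simp⟩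
  have hinv : ψ x⁻¹ = - ψ x := by
    have h1 := hF 1 x (Commute.refl x)
    have h2 := hF (1 * x) x⁻¹ (Commute.refl x).inv_left
    rw [mul_inv_cancel_right] at h2
    linarith
  have hcx : c x x = ψ x := by
    simp only [hc, if_pos hPx]
    have h1 := hσP x hPx
    have h2 : σ x * x = x * σ x := mul_inv_eq_iff_eq_mul.mp h1
    have e2 : x⁻¹ * σ x = σ x * x⁻¹ := by
      rw [inv_mul_eq_iff_eq_mul, ← mul_assoc, ← h2, mul_inv_cancel_right]
    rw [e2, hF _ _ (Commute.refl x).inv_left, hinv]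
    ring
  exact cocycle_raw e hs he c hcoc hbd x (by rw [hcx]; exact hx)

/-- McShane type extension: an additive function on a group `A` mapping to `G`, dominated by a
symmetric subadditive function of `G`, extends to an equivariant function on `G` that is
Lipschitz for left multiplication. -/
theorem mcshane {A : Type*} [Group A] (j : A →* G) (φ : A → ℝ)
    (hφ : ∀ a b, φ (a * b) = φ a + φ b)
    (L : G → ℝ) (hL : ∀ g h, L (g * h) ≤ L g + L h) (hsymm : ∀ g, L g⁻¹ = L g)
    (hdom : ∀ a, |φ a| ≤ L (j a)) :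
    ∃ F : G → ℝ, (∀ g a, F (g * j a) = F g + φ a) ∧ (∀ h g, |F (h * g) - F g| ≤ L h) := by
  have hbdd : ∀ g, BddBelow (Set.range fun a : A => φ a + L (g * (j a)⁻¹)) := by
    intro g
    refine ⟨- L g, ?_⟩
    rintro _ ⟨a, rfl⟩
    have h1 := hL g⁻¹ (g * (j a)⁻¹)
    rw [inv_mul_cancel_left, hsymm, hsymm] at h1
    have h2 := (abs_le.mp (hdom a)).1
    show - L g ≤ φ a + L (g * (j a)⁻¹)
    linarith
  refine ⟨fun g => ⨅ a : A, (φ a + L (g * (j a)⁻¹)), ?_, ?_⟩
  · intro g b
    show (⨅ a : A, (φ a + L (g * j b * (j a)⁻¹))) = (⨅ a : A, (φ a + L (g * (j a)⁻¹))) + φ b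
    rw [ciInf_add (hbdd g)]
    rw [← (Equiv.mulRight b).iInf_comp]
    refine iInf_congr fun a => ?_
    have e1 : g * j b * (j (a * b))⁻¹ = g * (j a)⁻¹ := by
      rw [map_mul]; group
    simp only [Equiv.coe_mulRight]
    rw [e1, hφ]
    ring
  · have key : ∀ h g, (⨅ a : A, (φ a + L (h * g * (j a)⁻¹)))
        ≤ (⨅ a : A, (φ a + L (g * (j a)⁻¹))) + L h := by
      intro h g
      rw [ciInf_add (hbdd g)]
      refine le_ciInf fun a => ?_
      refine (ciInf_le (hbdd (h * g)) a).trans ?_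
      have := hL h (g * (j a)⁻¹)
      rw [← mul_assoc] at this
      linarith
    intro h g
    show |(⨅ a : A, (φ a + L (h * g * (j a)⁻¹))) - (⨅ a : A, (φ a + L (g * (j a)⁻¹)))| ≤ L h
    rw [abs_le]
    constructor
    · have := key h⁻¹ (h * g)
      rw [inv_mul_cancel_left, hsymm] at this
      linarith
    · have := key h g
      linarith

/-- symmetrization of a subadditive function -/
theorem symm_length (L : G → ℝ) (hL : ∀ g h, L (g * h) ≤ L g + L h) :
    (∀ g h, max (L (g * h)) (L (g * h)⁻¹) ≤ max (L g) (L g⁻¹) + max (L h) (L h⁻¹)) ∧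
    (∀ g, max (L g⁻¹) (L g⁻¹⁻¹) = max (L g) (L g⁻¹)) := by
  constructor
  · intro g h
    refine max_le ?_ ?_
    · exact (hL g h).trans (add_le_add (le_max_left _ _) (le_max_left _ _))
    · rw [mul_inv_rev]
      refine (hL h⁻¹ g⁻¹).trans ?_
      rw [add_comm]
      exact add_le_add (le_max_right _ _) (le_max_right _ _)
  · intro g
    rw [inv_inv, max_comm]

theorem length_raw (e : ι → ι → G → ℂ) (hs : ∀ i j, Summable fun g => ‖e i j g‖)
    (he : ∀ i j g, ∑ k, ∑' h, e i k h * e k j (h⁻¹ * g) = e i j g)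
    (L : G → ℝ) (hL : ∀ g h, L (g * h) ≤ L g + L h) (x : G) (φ : G → ℝ)
    (hadd : ∀ z w, Commute z x → Commute w x → φ (z * w) = φ z + φ w)
    (hdom : ∀ z, Commute z x → |φ z| ≤ L z) (hx : φ x ≠ 0) :
    ∑' g : (ConjClasses.mk x).carrier, ∑ i, e i i g = 0 := by
  classical
  set Z : Subgroup G := Subgroup.centralizer {x} with hZ
  have hmem : ∀ z : Z, Commute (z : G) x := by
    intro z
    exact Subgroup.mem_centralizer_singleton_iff.mp z.2
  obtain ⟨hL1, hL2⟩ := symm_length L hL
  obtain ⟨F, hF1, hF2⟩ := mcshane Z.subtype (fun z : Z => φ z)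
    (fun a b => hadd _ _ (hmem a) (hmem b)) (fun g => max (L g) (L g⁻¹)) hL1 hL2
    (fun a => (hdom _ (hmem a)).trans (le_max_left _ _))
  refine equivariant_raw e hs he F φ x ?_ (fun h => ⟨_, hF2 h⟩) hx
  intro g z hz
  have hzZ : z ∈ Z := Subgroup.mem_centralizer_singleton_iff.mpr hz
  exact hF1 g ⟨z, hzZ⟩

end Vale.Agent.P184
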