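import Vale.Agent.P184.Length

/-!
Vanishing of the Hattori-Stallings coefficient at a class `[x]` when some finite dimensional
linear representation of `G` over a normed field sends `x` to a matrix having an eigenvalue of
absolute value different from one.
-/

namespace Vale.Agent.P184

open scoped BigOperators Matrix.Norms.Operator

variable {K : Type*} [NormedField K] {n : Type*} [Fintype n] [DecidableEq n]

/-- A linear functional on `n → K` is bounded for the sup norm. -/
theorem functional_bound (l : (n → K) →ₗ[K] K) (w : n → K) :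
    ‖l w‖ ≤ (∑ k, ‖l fun j => if k = j then 1 else 0‖) * ‖w‖ := by
  rw [LinearMap.pi_apply_eq_sum_univ l w, Finset.sum_mul]
  refine (norm_sum_le _ _).trans (Finset.sum_le_sum fun k _ => ?_)
  rw [norm_smul, mul_comm]
  exact mul_le_mul_of_nonneg_left (norm_le_pi_norm w k) (norm_nonneg _)

/-- The determinant of the restriction of a matrix to an invariant subspace `V` is bounded by a
constant (depending on `V` only) times a power of the operator norm of the matrix. -/
theorem det_restrict_bound (V : Submodule K (n → K)) :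
    ∃ C : ℝ, 1 ≤ C ∧ ∀ (A : Matrix n n K) (hA : ∀ w ∈ V, Matrix.toLin' A w ∈ V),
      ‖LinearMap.det ((Matrix.toLin' A).restrict hA)‖ ≤ C * ‖A‖ ^ Module.finrank K V := by
  classical
  set b := Module.finBasis K V with hb
  choose l hl using fun i => LinearMap.exists_extend (b.coord i)
  set c1 : ℝ := (∑ i, ∑ k, ‖l i fun j => if k = j then 1 else 0‖) * ∑ j, ‖(b j : n → K)‖ with hc1
  have hc1nn : 0 ≤ c1 := by positivity
  refine ⟨1 + (Module.finrank K V).factorial * c1 ^ Module.finrank K V,
    le_add_of_nonneg_right (by positivity), fun A hA => ?_⟩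
  rw [← LinearMap.det_toMatrix b]
  have hentry : ∀ i j, ‖LinearMap.toMatrix b b ((Matrix.toLin' A).restrict hA) i j‖
      ≤ c1 * ‖A‖ := by
    intro i j
    rw [LinearMap.toMatrix_apply]
    have e1 : b.repr (((Matrix.toLin' A).restrict hA) (b j)) i
        = l i (Matrix.toLin' A (b j : n → K)) := by
      have := congrArg (fun f => f (((Matrix.toLin' A).restrict hA) (b j))) (hl i)
      simp only [LinearMap.comp_apply, Submodule.subtype_apply, Module.Basis.coord_apply] at this
      rw [← this]
      rfl
    rw [e1, Matrix.toLin'_apply]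
    refine (functional_bound (l i) _).trans ?_
    have h1 : ‖A.mulVec (b j : n → K)‖ ≤ ‖A‖ * ‖(b j : n → K)‖ :=
      Matrix.linfty_opNorm_mulVec A _
    have h2 : (∑ k, ‖l i fun j => if k = j then 1 else 0‖)
        ≤ ∑ i, ∑ k, ‖l i fun j => if k = j then 1 else 0‖ :=
      Finset.single_le_sum (f := fun i => ∑ k, ‖l i fun j => if k = j then 1 else 0‖)
        (fun i _ => by positivity) (Finset.mem_univ i)
    have h3 : ‖(b j : n → K)‖ ≤ ∑ j, ‖(b j : n → K)‖ :=
      Finset.single_le_sum (f := fun j => ‖(b j : n → K)‖)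
        (fun i _ => by positivity) (Finset.mem_univ j)
    calc (∑ k, ‖l i fun j => if k = j then 1 else 0‖) * ‖A.mulVec (b j : n → K)‖
        ≤ (∑ i, ∑ k, ‖l i fun j => if k = j then 1 else 0‖) * (‖A‖ * ∑ j, ‖(b j : n → K)‖) := by
          refine mul_le_mul h2 (h1.trans ?_) (norm_nonneg _) (by positivity)
          exact mul_le_mul_of_nonneg_left h3 (norm_nonneg _)
      _ = c1 * ‖A‖ := by rw [hc1]; ring
  have hdet := Matrix.det_le (abv := IsAbsoluteValue.toAbsoluteValue (norm : K → ℝ)) hentry
  simp only [Fintype.card_fin, nsmul_eq_mul] at hdet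
  refine le_trans hdet ?_
  rw [mul_pow, add_mul, one_mul, mul_assoc]
  exact le_add_of_nonneg_left (by positivity)

variable {G : Type*} [Group G] {ι : Type*} [Fintype ι]

theorem linear_raw (e : ι → ι → G → ℂ) (hs : ∀ i j, Summable fun g => ‖e i j g‖)
    (he : ∀ i j g, ∑ k, ∑' h, e i k h * e k j (h⁻¹ * g) = e i j g)
    (ρ : G →* Matrix n n K) (x : G) (v : n → K) (hv : v ≠ 0) (lam : K)
    (hlam : (ρ x).mulVec v = lam • v) (hne : ‖lam‖ ≠ 1) :
    ∑' g : (ConjClasses.mk x).carrier, ∑ i, e i i g = 0 := by
  classical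
  have hnonempty : Nonempty n := by
    by_contra h
    rw [not_nonempty_iff] at h
    exact hv (Subsingleton.elim _ _)
  set T : G → ((n → K) →ₗ[K] (n → K)) := fun g => Matrix.toLin' (ρ g) with hT
  have hTmul : ∀ g h w, T (g * h) w = T g (T h w) := by
    intro g h w
    simp only [hT, map_mul, Matrix.toLin'_mul, LinearMap.comp_apply]
  have hT1 : ∀ w, T 1 w = w := by
    intro w
    simp only [hT, map_one, Matrix.toLin'_one, LinearMap.id_apply]
  set V : Submodule K (n → K) := Module.End.eigenspace (T x) lam with hV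
  have hVmem : ∀ w, w ∈ V ↔ T x w = lam • w := fun w => Module.End.mem_eigenspace_iff
  have hinv : ∀ z, Commute z x → ∀ w ∈ V, T z w ∈ V := by
    intro z hz w hw
    rw [hVmem] at hw ⊢
    rw [← hTmul, ← hz.eq, hTmul, hw, map_smul]
  set d : G → K := fun z =>
    if hz : Commute z x then LinearMap.det ((T z).restrict (hinv z hz)) else 1 with hd
  have hdmul : ∀ z w, Commute z x → Commute w x → d (z * w) = d z * d w := by
    intro z w hz hw
    have hzw : Commute (z * w) x := hz.mul_left hw
    simp only [hd, dif_pos hz, dif_pos hw, dif_pos hzw]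
    rw [← LinearMap.det_comp]
    congr 1
    ext u : 1
    apply Subtype.ext
    simp only [LinearMap.coe_restrict_apply, LinearMap.comp_apply]
    exact hTmul z w u
  have hd1 : d 1 = 1 := by
    simp only [hd, dif_pos (Commute.one_left x)]
    have : (T 1).restrict (hinv 1 (Commute.one_left x)) = LinearMap.id := by
      ext u : 1
      apply Subtype.ext
      simp only [LinearMap.coe_restrict_apply, LinearMap.id_apply]
      exact hT1 u
    rw [this, LinearMap.det_id]
  have hdne : ∀ z, Commute z x → d z ≠ 0 := by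
    intro z hz h0
    have := hdmul z z⁻¹ hz hz.inv_left
    rw [mul_inv_cancel, hd1, h0, zero_mul] at this
    exact one_ne_zero this
  obtain ⟨C, hC1, hC⟩ := det_restrict_bound V
  have hC0 : 0 < C := lt_of_lt_of_le one_pos hC1
  set m := Module.finrank K V with hm
  have hρpos : ∀ g, 0 < ‖ρ g‖ := by
    intro g
    rw [norm_pos_iff]
    intro h0
    have : ρ g * ρ g⁻¹ = 1 := by rw [← map_mul, mul_inv_cancel, map_one]
    rw [h0, zero_mul] at this
    exact zero_ne_one this
  set L0 : G → ℝ := fun g => Real.log C + m * Real.log ‖ρ g‖ with hL0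
  have hL0sub : ∀ g h, L0 (g * h) ≤ L0 g + L0 h := by
    intro g h
    have h1 : Real.log ‖ρ (g * h)‖ ≤ Real.log ‖ρ g‖ + Real.log ‖ρ h‖ := by
      rw [← Real.log_mul (hρpos g).ne' (hρpos h).ne', map_mul]
      exact Real.log_le_log (by rw [← map_mul]; exact hρpos _) (norm_mul_le _ _)
    have h2 : 0 ≤ Real.log C := Real.log_nonneg hC1
    have h3 : (m : ℝ) * Real.log ‖ρ (g * h)‖ ≤ m * (Real.log ‖ρ g‖ + Real.log ‖ρ h‖) :=
      mul_le_mul_of_nonneg_left h1 (Nat.cast_nonneg _)
    simp only [hL0]
    linarith
  have hφle : ∀ z, Commute z x → Real.log ‖d z‖ ≤ L0 z := by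
    intro z hz
    have h1 : ‖d z‖ ≤ C * ‖ρ z‖ ^ m := by
      simp only [hd, dif_pos hz]
      exact hC (ρ z) (hinv z hz)
    have h2 : 0 < ‖d z‖ := norm_pos_iff.mpr (hdne z hz)
    refine (Real.log_le_log h2 h1).trans ?_
    rw [Real.log_mul hC0.ne' (pow_pos (hρpos z) m).ne', Real.log_pow]
  have hφadd : ∀ z w, Commute z x → Commute w x →
      Real.log ‖d (z * w)‖ = Real.log ‖d z‖ + Real.log ‖d w‖ := by
    intro z w hz hw
    rw [hdmul z w hz hw, norm_mul,
      Real.log_mul (norm_ne_zero_iff.mpr (hdne z hz)) (norm_ne_zero_iff.mpr (hdne w hw))]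
  refine length_raw e hs he (fun g => max (L0 g) (L0 g⁻¹)) (symm_length L0 hL0sub).1 x
    (fun z => Real.log ‖d z‖) hφadd ?_ ?_
  · intro z hz
    have h1 := hφadd z z⁻¹ hz hz.inv_left
    rw [mul_inv_cancel, hd1, norm_one, Real.log_one] at h1
    rw [abs_le]
    constructor
    · have := hφle z⁻¹ hz.inv_left
      have h2 : L0 z⁻¹ ≤ max (L0 z) (L0 z⁻¹) := le_max_right _ _
      linarith
    · exact (hφle z hz).trans (le_max_left _ _)
  · have hvV : v ∈ V := by
      rw [hVmem]
      simp only [hT, Matrix.toLin'_apply]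
      exact hlam
    have hlam0 : lam ≠ 0 := by
      intro h0
      apply hv
      have h1 : T x v = 0 := by rw [(hVmem v).mp hvV, h0, zero_smul]
      have h2 := hTmul x⁻¹ x v
      rw [inv_mul_cancel, hT1, h1, map_zero] at h2
      exact h2
    have hmpos : 0 < m := by
      have : Nontrivial V := ⟨⟨⟨v, hvV⟩, 0, fun h => hv (congrArg Subtype.val h)⟩⟩
      exact Module.finrank_pos
    have hdx : d x = lam ^ m := by
      simp only [hd, dif_pos (Commute.refl x)]
      have : (T x).restrict (hinv x (Commute.refl x)) = lam • LinearMap.id := by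
        ext u : 1
        apply Subtype.ext
        simp only [LinearMap.coe_restrict_apply, LinearMap.smul_apply, LinearMap.id_apply,
          Submodule.coe_smul]
        exact (hVmem _).mp u.2
      rw [this, LinearMap.det_smul, LinearMap.det_id, mul_one]
    show Real.log ‖d x‖ ≠ 0
    rw [hdx, norm_pow, Real.log_pow]
    refine mul_ne_zero (Nat.cast_ne_zero.mpr hmpos.ne') ?_
    rw [Real.log_ne_zero]
    refine ⟨norm_ne_zero_iff.mpr hlam0, hne, ?_⟩
    have := norm_nonneg lam
    linarith

end Vale.Agent.P184
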