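import Vale.Agent.P184.L1
import Vale.Agent.P184.Abstract

/-!
Matrices over the convolution ring: trace, gauge, and the closeness lemma.
-/

namespace Vale.Agent.P184

open scoped BigOperators

variable {G : Type*} [Group G] {κ : Type*} [Fintype κ] [DecidableEq κ]

/-- weighted trace of a matrix over the convolution ring -/
noncomputable def mtr (w : G → ℂ) (M : Matrix κ κ (L1 G)) : ℂ := ∑ k, L1.pair w (M k k)

/-- entrywise l1 gauge -/
noncomputable def mnrm (M : Matrix κ κ (L1 G)) : ℝ := ∑ k, ∑ l, (M k l).nrm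

omit [DecidableEq κ] in
theorem mnrm_nonneg (M : Matrix κ κ (L1 G)) : 0 ≤ mnrm M :=
  Finset.sum_nonneg fun _ _ => Finset.sum_nonneg fun _ _ => L1.nrm_nonneg _

omit [DecidableEq κ] in
theorem mtr_add {w : G → ℂ} {B : ℝ} (hw : ∀ g, ‖w g‖ ≤ B) (M N : Matrix κ κ (L1 G)) :
    mtr w (M + N) = mtr w M + mtr w N := by
  unfold mtr
  rw [← Finset.sum_add_distrib]
  exact Finset.sum_congr rfl fun k _ => L1.pair_add hw _ _

/-- the weighted trace as an additive homomorphism -/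
noncomputable def mtrHom (w : G → ℂ) {B : ℝ} (hw : ∀ g, ‖w g‖ ≤ B) :
    Matrix κ κ (L1 G) →+ ℂ :=
  AddMonoidHom.mk' (mtr w) (mtr_add hw)

omit [DecidableEq κ] in
theorem pair_sum {w : G → ℂ} {B : ℝ} (hw : ∀ g, ‖w g‖ ≤ B) {γ : Type*} (s : Finset γ)
    (f : γ → L1 G) : L1.pair w (∑ k ∈ s, f k) = ∑ k ∈ s, L1.pair w (f k) :=
  map_sum (AddMonoidHom.mk' (L1.pair w) (L1.pair_add hw)) f s

omit [DecidableEq κ] in
theorem mtr_mul_comm {w : G → ℂ} {B : ℝ} (hw : ∀ g, ‖w g‖ ≤ B)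
    (hcl : ∀ g h, w (g * h) = w (h * g)) (M N : Matrix κ κ (L1 G)) :
    mtr w (M * N) = mtr w (N * M) := by
  unfold mtr
  simp only [Matrix.mul_apply, pair_sum hw]
  rw [Finset.sum_comm]
  exact Finset.sum_congr rfl fun k _ => Finset.sum_congr rfl fun l _ =>
    L1.pair_mul_comm hw hcl _ _

omit [DecidableEq κ] in
theorem norm_mtr_le {w : G → ℂ} (hw : ∀ g, ‖w g‖ ≤ 1) (M : Matrix κ κ (L1 G)) :
    ‖mtr w M‖ ≤ mnrm M := by
  unfold mtr mnrm
  refine (norm_sum_le _ _).trans (Finset.sum_le_sum fun k _ => ?_)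
  refine (L1.norm_pair_le hw _).trans ?_
  exact Finset.single_le_sum (f := fun l => (M k l).nrm) (fun l _ => L1.nrm_nonneg _)
    (Finset.mem_univ k)

omit [DecidableEq κ] in
theorem mnrm_mul_le (M N : Matrix κ κ (L1 G)) : mnrm (M * N) ≤ mnrm M * mnrm N := by
  unfold mnrm
  have h1 : ∀ k l, ((M * N) k l).nrm ≤ ∑ j, (M k j).nrm * (N j l).nrm := by
    intro k l
    rw [Matrix.mul_apply]
    exact (L1.nrm_sum_le _ _).trans (Finset.sum_le_sum fun j _ => L1.nrm_mul_le _ _)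
  calc ∑ k, ∑ l, ((M * N) k l).nrm
      ≤ ∑ k, ∑ l, ∑ j, (M k j).nrm * (N j l).nrm :=
        Finset.sum_le_sum fun k _ => Finset.sum_le_sum fun l _ => h1 k l
    _ = ∑ k, ∑ j, (M k j).nrm * ∑ l, (N j l).nrm := by
        refine Finset.sum_congr rfl fun k _ => ?_
        rw [Finset.sum_comm]
        exact Finset.sum_congr rfl fun j _ => (Finset.mul_sum _ _ _).symm
    _ ≤ ∑ k, ∑ j, (M k j).nrm * ∑ j', ∑ l, (N j' l).nrm := by
        refine Finset.sum_le_sum fun k _ => Finset.sum_le_sum fun j _ => ?_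
        refine mul_le_mul_of_nonneg_left ?_ (L1.nrm_nonneg _)
        exact Finset.single_le_sum (f := fun j' => ∑ l, (N j' l).nrm)
          (fun j' _ => Finset.sum_nonneg fun _ _ => L1.nrm_nonneg _) (Finset.mem_univ j)
    _ = (∑ k, ∑ l, (M k l).nrm) * ∑ k, ∑ l, (N k l).nrm := by
        rw [Finset.sum_mul]
        exact Finset.sum_congr rfl fun k _ => (Finset.sum_mul _ _ _).symm

/-- closeness lemma for idempotent matrices over the convolution ring -/
theorem mtr_eq_of_close {w : G → ℂ} (hw : ∀ g, ‖w g‖ ≤ 1)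
    (hcl : ∀ g h, w (g * h) = w (h * g)) {E F : Matrix κ κ (L1 G)}
    (hE : E * E = E) (hF : F * F = F) (hclose : mnrm (E - F) < 1) :
    mtr w E = mtr w F := by
  have h1 : ∀ a b : Matrix κ κ (L1 G), mtrHom w hw (a * b) = mtrHom w hw (b * a) :=
    fun a b => mtr_mul_comm hw hcl a b
  have h2 : ∀ a : Matrix κ κ (L1 G), ‖mtrHom w hw a‖ ≤ mnrm a := fun a => norm_mtr_le hw a
  have h4 : ∀ a b : Matrix κ κ (L1 G), mnrm (a * b) ≤ mnrm a * mnrm b := mnrm_mul_le
  have h5 : ∀ a : Matrix κ κ (L1 G), 0 ≤ mnrm a := mnrm_nonneg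
  have h3 : mtrHom w hw E = mtrHom w hw F :=
    @trace_eq_of_close (Matrix κ κ (L1 G)) _ (mtrHom w hw) mnrm h1 h4 h5 h2 E F hE hF hclose
  exact h3

end Vale.Agent.P184
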