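import Vale.Agent.P184.Raw

/-!
Homotopy invariance: along a connected family of uniformly bounded finite-dimensional
representations, character times Hattori-Stallings coefficient is constant.
-/

namespace Vale.Agent.P184

open scoped BigOperators Topology
open Filter

variable {G : Type*} [Group G] {ι μ : Type*} [Fintype ι] [Fintype μ]

theorem tendsto_defect {X : Type*} [TopologicalSpace X]
    (e : ι → ι → G → ℂ) (hs : ∀ i j, Summable fun g => ‖e i j g‖)
    (ρ : X → G → Matrix μ μ ℂ) {K : ℝ} (hb : ∀ s g a b, ‖ρ s g a b‖ ≤ K)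
    (hc : ∀ g a b, Continuous fun s => ρ s g a b) (s0 : X) :
    Tendsto (fun s => ∑ i, ∑ a, ∑ j, ∑ b, ∑' g, ‖ρ s g a b - ρ s0 g a b‖ * ‖e i j g‖)
      (𝓝 s0) (𝓝 0) := by
  have key : ∀ i a j b, Tendsto (fun s => ∑' g, ‖ρ s g a b - ρ s0 g a b‖ * ‖e i j g‖)
      (𝓝 s0) (𝓝 0) := by
    intro i a j b
    have h0 : (∑' g : G, (0 : ℝ)) = 0 := tsum_zero
    rw [← h0]
    refine tendsto_tsum_of_dominated_convergence (bound := fun g => (K + K) * ‖e i j g‖)
      ((hs i j).mul_left _) ?_ ?_
    · intro g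
      have h1 : Tendsto (fun s => ρ s g a b - ρ s0 g a b) (𝓝 s0) (𝓝 (ρ s0 g a b - ρ s0 g a b)) :=
        ((hc g a b).tendsto s0).sub tendsto_const_nhds
      rw [sub_self] at h1
      have h2 := (h1.norm).mul_const ‖e i j g‖
      simpa using h2
    · refine Eventually.of_forall fun s g => ?_
      rw [norm_mul, norm_norm, norm_norm]
      refine mul_le_mul_of_nonneg_right ?_ (norm_nonneg _)
      exact (norm_sub_le _ _).trans (add_le_add (hb _ _ _ _) (hb _ _ _ _))
  have h := tendsto_finsetSum (Finset.univ : Finset ι) fun i _ =>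
    tendsto_finsetSum (Finset.univ : Finset μ) fun a _ =>
    tendsto_finsetSum (Finset.univ : Finset ι) fun j _ =>
    tendsto_finsetSum (Finset.univ : Finset μ) fun b _ => key i a j b
  simpa using h

/-- Homotopy invariance along a preconnected parameter space. -/
theorem path_raw [DecidableEq μ] {X : Type*} [TopologicalSpace X] [PreconnectedSpace X]
    (e : ι → ι → G → ℂ) (hs : ∀ i j, Summable fun g => ‖e i j g‖)
    (he : ∀ i j g, ∑ k, ∑' h, e i k h * e k j (h⁻¹ * g) = e i j g)
    (ρ : X → G →* Matrix μ μ ℂ) {K : ℝ} (hb : ∀ s g a b, ‖ρ s g a b‖ ≤ K)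
    (hc : ∀ g a b, Continuous fun s => ρ s g a b) (s t : X) (x : G) :
    Matrix.trace (ρ s x) * ∑' g : (ConjClasses.mk x).carrier, ∑ i, e i i g
      = Matrix.trace (ρ t x) * ∑' g : (ConjClasses.mk x).carrier, ∑ i, e i i g := by
  have hl : IsLocallyConstant fun s =>
      Matrix.trace (ρ s x) * ∑' g : (ConjClasses.mk x).carrier, ∑ i, e i i g := by
    rw [IsLocallyConstant.iff_eventually_eq]
    intro s0
    have h1 := tendsto_defect e hs (fun s => (ρ s : G → Matrix μ μ ℂ)) hb hc s0
    have h2 := h1.eventually (gt_mem_nhds (zero_lt_one : (0 : ℝ) < 1))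
    filter_upwards [h2] with s hs1
    exact core_raw e hs he (ρ s) (ρ s0) (hb s) (hb s0) hs1 x
  exact hl.apply_eq_of_preconnectedSpace s t

end Vale.Agent.P184
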