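import Vale.Agent.P184.Cocycle

/-!
Vanishing of the Hattori-Stallings coefficient at a class detected by a quasimorphism that is
additive on the centralizer.
-/

namespace Vale.Agent.P184

open scoped BigOperators

variable {G : Type*} [Group G] {ι : Type*} [Fintype ι]

theorem quasi_bound {f : G → ℝ} {D : ℝ} (hq : ∀ g h, |f (g * h) - f g - f h| ≤ D) (a g b : G) :
    |f (a⁻¹ * g * b) - f b + f a| ≤ |f g| + 4 * D := by
  have h1 := abs_le.mp (hq (a⁻¹ * g) b)
  have h2 := abs_le.mp (hq a⁻¹ g)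
  have h3 := abs_le.mp (hq a⁻¹ a)
  have h4 := abs_le.mp (hq 1 1)
  rw [inv_mul_cancel] at h3
  rw [mul_one] at h4
  have h5 := abs_le.mp (le_refl |f g|)
  rw [abs_le]
  constructor <;> linarith [h1.1, h1.2, h2.1, h2.2, h3.1, h3.2, h4.1, h4.2, h5.1, h5.2]

theorem quasi_raw (e : ι → ι → G → ℂ) (hs : ∀ i j, Summable fun g => ‖e i j g‖)
    (he : ∀ i j g, ∑ k, ∑' h, e i k h * e k j (h⁻¹ * g) = e i j g)
    (f : G → ℝ) (D : ℝ) (hq : ∀ g h, |f (g * h) - f g - f h| ≤ D) (x : G)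
    (hadd : ∀ z w, Commute z x → Commute w x → f (z * w) = f z + f w) (hx : f x ≠ 0) :
    ∑' g : (ConjClasses.mk x).carrier, ∑ i, e i i g = 0 := by
  classical
  set P : G → Prop := fun y => ∃ s, s * x * s⁻¹ = y with hP
  set σ : G → G := fun y => if h : P y then h.choose else 1 with hσ
  have hσP : ∀ y, P y → σ y * x * (σ y)⁻¹ = y := by
    intro y hy
    simp only [hσ, dif_pos hy]
    exact hy.choose_spec
  have hPconj : ∀ g y, P y → P (g⁻¹ * y * g) := by
    rintro g y ⟨s, rfl⟩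
    exact ⟨g⁻¹ * s, by group⟩
  have hPconj' : ∀ g y, ¬ P y → ¬ P (g⁻¹ * y * g) := by
    intro g y hy h
    apply hy
    have := hPconj g⁻¹ _ h
    have e1 : g⁻¹⁻¹ * (g⁻¹ * y * g) * g⁻¹ = y := by group
    rwa [e1] at this
  set c : G → G → ℝ := fun g y =>
    if P y then f ((σ y)⁻¹ * g * σ (g⁻¹ * y * g)) - f (σ (g⁻¹ * y * g)) + f (σ y) else 0 with hc
  have hcomm : ∀ g y, P y → Commute ((σ y)⁻¹ * g * σ (g⁻¹ * y * g)) x := by
    intro g y hy
    have h1 := hσP y hy
    have h2 := hσP _ (hPconj g y hy)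
    set a := σ y
    set b := σ (g⁻¹ * y * g)
    have h3 : b * x = g⁻¹ * y * g * b := by
      rw [← h2]; group
    have h4 : a⁻¹ * y = x * a⁻¹ := by
      rw [← h1]; group
    show a⁻¹ * g * b * x = x * (a⁻¹ * g * b)
    calc a⁻¹ * g * b * x = a⁻¹ * g * (b * x) := by group
      _ = a⁻¹ * g * (g⁻¹ * y * g * b) := by rw [h3]
      _ = (a⁻¹ * y) * (g * b) := by group
      _ = x * a⁻¹ * (g * b) := by rw [h4]
      _ = x * (a⁻¹ * g * b) := by group
  have hcoc : ∀ g h y, c (g * h) y = c g y + c h (g⁻¹ * y * g) := by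
    intro g h y
    by_cases hy : P y
    · have hy' := hPconj g y hy
      have e2 : (g * h)⁻¹ * y * (g * h) = h⁻¹ * (g⁻¹ * y * g) * h := by group
      simp only [hc, if_pos hy, if_pos hy', e2]
      have hz := hadd _ _ (hcomm g y hy) (hcomm h _ hy')
      have e3 : (σ y)⁻¹ * g * σ (g⁻¹ * y * g)
          * ((σ (g⁻¹ * y * g))⁻¹ * h * σ (h⁻¹ * (g⁻¹ * y * g) * h))
          = (σ y)⁻¹ * (g * h) * σ (h⁻¹ * (g⁻¹ * y * g) * h) := by group
      rw [e3] at hz
      rw [hz]
      ring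
    · have hy' := hPconj' g y hy
      simp only [hc, if_neg hy, if_neg hy', add_zero]
  have hD : 0 ≤ D := (abs_nonneg _).trans (hq 1 1)
  have hbd : ∀ g, ∃ K, ∀ y, |c g y| ≤ K := by
    intro g
    refine ⟨|f g| + 4 * D, fun y => ?_⟩
    by_cases hy : P y
    · simp only [hc, if_pos hy]
      exact quasi_bound hq _ _ _
    · simp only [hc, if_neg hy, abs_zero]
      positivity
  have hPx : P x := ⟨1, by simp⟩
  have hcx : c x x = f x := by
    have e1 : x⁻¹ * x * x = x := by group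
    simp only [hc, if_pos hPx, e1]
    have h1 := hσP x hPx
    have e2 : (σ x)⁻¹ * x * σ x = x := by
      have h2 : σ x * x = x * σ x := mul_inv_eq_iff_eq_mul.mp h1
      rw [mul_assoc, ← h2, inv_mul_cancel_left]
    rw [e2]
    ring
  exact cocycle_raw e hs he c hcoc hbd x (by rw [hcx]; exact hx)

end Vale.Agent.P184
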