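import Vale.Agent.P184.Mat

/-!
Twisting an idempotent matrix over the convolution ring by a finite-dimensional
representation with bounded matrix coefficients.
-/

namespace Vale.Agent.P184

open scoped BigOperators

variable {G : Type*} [Group G] {ι μ : Type*} [Fintype ι] [Fintype μ]

omit [Group G] in
theorem summable_twist {r u : G → ℂ} {K : ℝ} (hr : ∀ g, ‖r g‖ ≤ K)
    (hu : Summable fun g => ‖u g‖) : Summable fun g => ‖r g * u g‖ := by
  refine Summable.of_nonneg_of_le (fun _ => norm_nonneg _) (fun g => ?_) (hu.mul_left K)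
  rw [norm_mul]
  exact mul_le_mul_of_nonneg_right (hr g) (norm_nonneg _)

theorem conv_twist_sum [DecidableEq μ] (ρ : G →* Matrix μ μ ℂ) {K : ℝ}
    (hρ : ∀ g a b, ‖ρ g a b‖ ≤ K)
    {u v : G → ℂ} (hu : Summable fun g => ‖u g‖) (hv : Summable fun g => ‖v g‖)
    (a b : μ) (g : G) :
    ∑ c, conv (fun h => ρ h a c * u h) (fun h => ρ h c b * v h) g = ρ g a b * conv u v g := by
  unfold conv
  rw [← Summable.tsum_finsetSum, ← tsum_mul_left]
  · refine tsum_congr fun h => ?_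
    have h1 : ρ g = ρ h * ρ (h⁻¹ * g) := by rw [← map_mul]; simp
    rw [h1, Matrix.mul_apply, Finset.sum_mul]
    exact Finset.sum_congr rfl fun c _ => by ring
  · intro c _
    exact summable_conv_term (summable_twist (fun g => hρ g a c) hu)
      (summable_twist (fun g => hρ g c b) hv) g

/-- the twist of a matrix over the convolution ring by a matrix valued function -/
noncomputable def tw (ρ : G → Matrix μ μ ℂ) {K : ℝ} (hρ : ∀ g a b, ‖ρ g a b‖ ≤ K)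
    (E : Matrix ι ι (L1 G)) : Matrix (ι × μ) (ι × μ) (L1 G) :=
  fun p q => L1.mk (fun g => ρ g p.2 q.2 * (E p.1 q.1).fn g)
    (summable_twist (fun g => hρ g p.2 q.2) (E p.1 q.1).summable)

theorem tw_idem [DecidableEq μ] (ρ : G →* Matrix μ μ ℂ) {K : ℝ}
    (hρ : ∀ g a b, ‖ρ g a b‖ ≤ K) {E : Matrix ι ι (L1 G)} (hE : E * E = E) :
    tw ρ hρ E * tw ρ hρ E = tw ρ hρ E := by
  funext p q
  apply L1.ext
  funext g
  rw [Matrix.mul_apply, L1.fn_sum, Finset.sum_apply, Fintype.sum_prod_type]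
  have h1 : ∀ k : ι, ∑ c : μ, ((tw ρ hρ E p (k, c)) * (tw ρ hρ E (k, c) q)).fn g
      = ρ g p.2 q.2 * conv (E p.1 k).fn (E k q.1).fn g := by
    intro k
    exact conv_twist_sum ρ hρ (E p.1 k).summable (E k q.1).summable p.2 q.2 g
  rw [Finset.sum_congr rfl fun k _ => h1 k, ← Finset.mul_sum]
  have h2 : (E p.1 q.1).fn g = ∑ k, conv (E p.1 k).fn (E k q.1).fn g := by
    conv_lhs => rw [← hE]
    rw [Matrix.mul_apply, L1.fn_sum, Finset.sum_apply]
    rfl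
  show _ = ρ g p.2 q.2 * (E p.1 q.1).fn g
  rw [h2]

theorem mtr_tw (ρ : G → Matrix μ μ ℂ) {K : ℝ} (hρ : ∀ g a b, ‖ρ g a b‖ ≤ K)
    {w : G → ℂ} {B : ℝ} (hw : ∀ g, ‖w g‖ ≤ B) (E : Matrix ι ι (L1 G)) :
    mtr w (tw ρ hρ E) = mtr (fun g => w g * Matrix.trace (ρ g)) E := by
  unfold mtr
  rw [Fintype.sum_prod_type]
  refine Finset.sum_congr rfl fun i _ => ?_
  unfold L1.pair
  rw [← Summable.tsum_finsetSum]
  · refine tsum_congr fun g => ?_
    simp only [Matrix.trace, Finset.mul_sum, Finset.sum_mul]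
    refine Finset.sum_congr rfl fun a _ => ?_
    show w g * (ρ g a a * (E i i).fn g) = _
    simp only [Matrix.diag_apply]
    ring
  · intro a _
    exact L1.summable_pair hw _

theorem mnrm_tw_sub (ρ ρ' : G → Matrix μ μ ℂ) {K K' : ℝ} (hρ : ∀ g a b, ‖ρ g a b‖ ≤ K)
    (hρ' : ∀ g a b, ‖ρ' g a b‖ ≤ K') (E : Matrix ι ι (L1 G)) :
    mnrm (tw ρ hρ E - tw ρ' hρ' E)
      = ∑ i, ∑ a, ∑ j, ∑ b, ∑' g, ‖ρ g a b - ρ' g a b‖ * ‖(E i j).fn g‖ := by
  unfold mnrm
  rw [Fintype.sum_prod_type]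
  refine Finset.sum_congr rfl fun i _ => Finset.sum_congr rfl fun a _ => ?_
  rw [Fintype.sum_prod_type]
  refine Finset.sum_congr rfl fun j _ => Finset.sum_congr rfl fun b _ => ?_
  unfold L1.nrm
  refine tsum_congr fun g => ?_
  show ‖ρ g a b * (E i j).fn g - ρ' g a b * (E i j).fn g‖ = _
  rw [← sub_mul, norm_mul]

/-- Core statement on the level of the convolution ring. -/
theorem core_ring [DecidableEq ι] [DecidableEq μ] (ρ ρ' : G →* Matrix μ μ ℂ) {K K' : ℝ}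
    (hρ : ∀ g a b, ‖ρ g a b‖ ≤ K) (hρ' : ∀ g a b, ‖ρ' g a b‖ ≤ K')
    {w : G → ℂ} (hw : ∀ g, ‖w g‖ ≤ 1) (hcl : ∀ g h, w (g * h) = w (h * g))
    {E : Matrix ι ι (L1 G)} (hE : E * E = E)
    (hclose : ∑ i, ∑ a, ∑ j, ∑ b, ∑' g, ‖ρ g a b - ρ' g a b‖ * ‖(E i j).fn g‖ < 1) :
    mtr (fun g => w g * Matrix.trace (ρ g)) E = mtr (fun g => w g * Matrix.trace (ρ' g)) E := by
  rw [← mtr_tw ρ hρ hw, ← mtr_tw ρ' hρ' hw]
  refine mtr_eq_of_close hw hcl (tw_idem ρ hρ hE) (tw_idem ρ' hρ' hE) ?_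
  rw [mnrm_tw_sub]
  exact hclose

end Vale.Agent.P184
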